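import Vale.Agent.P097.H434.Walls
import Vale.Agent.P097.H505.OneT
import Vale.Agent.P097.H6.WallH

/-!
# P097 / block (N): the row `H505.WallsAe`

`wallsAe_of : PW → PAI → HIae → WallsAe`, where `HIae` = the world and TOUCH at almost every point
of the edge with the constant sequence (W5-INST + pointwise layer).
-/

set_option linter.all false

open Complex Metric Filter Topology Set MeasureTheory
open scoped ComplexConjugate

namespace Vale.Agent.P097.H434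

open Vale.Agent.P097 Vale.Agent.P097.H6 Vale.Agent.P097.H929 Vale.Agent.P097.H85
open Vale.Agent.P097.H456.C Vale.Agent.P097.TA Vale.Agent.P097.H505

/-- **the input** : static world and TOUCH at almost every point of the edge; `B`, `K`, `al`, `p`,
`th`, `J` do not depend on the point -/
def HIae : Prop := ∀ {κ Λ b : ℝ} {H Φ : ℂ → ℂ} {r e : ℝ} {α p : ℂ → ℂ → ℂ} {J F q Q : ℂ → ℂ}
  {e₁ c₀ : ℝ} {R : ℂ → ℝ} {A P θ : ℂ × ℂ → ℂ}, 0 < e₁ → 0 < c₀ →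
  CC.Base κ Λ b H Φ r e α p J F q Q e₁ c₀ R A P θ →
  ∀ {n : ℤ} {ε b₀ m : ℝ} {Ψ : ℂ → ℂ} {S : Set ℝ} {Pt : ℝ → ℂ} {c k : ℝ → ℝ} {y₁ y₂ s s' : ℝ},
    GW R A P e₁ n ε b₀ m Ψ S Pt c k y₁ y₂ s s' →
    ∃ (B : Set (ℂ × ℂ)) (K : ℝ) (al pp th : ℂ × ℂ → ℂ) (J' : ℂ → ℂ),
      (∀ z ∈ Wn R e₁ ε b₀ n, th z = Th θ n z) ∧
      ∀ᵐ e : ℝ × ℝ, e.1 ∈ Ioo y₁ y₂ → e.2 ∈ S → ∃ σ : ℝ,
        A5.W5 Λ b F q b₀ m Ψ (MM R A P e₁ ε b₀ n) (MM R A P e₁ ε b₀ (n - 1)) B S Pt c k K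
          e.1 e.2 σ s al pp th J' ∧ A5.Tou b Pt c e.2 σ th (fun _ => e.1) (fun _ => e.2)

section
variable {κ Λ b : ℝ} {H Φ : ℂ → ℂ} {r e : ℝ} {α p : ℂ → ℂ → ℂ} {J F q Q : ℂ → ℂ}
  {e₁ c₀ : ℝ} {R : ℂ → ℝ} {A P θ : ℂ × ℂ → ℂ} {n : ℤ} {u : ℝ}

/-- the slice of the position is not constant modulo `1` -/
theorem tu_nc (hB : CC.Base κ Λ b H Φ r e α p J F q Q e₁ c₀ R A P θ) (hu : |u| < e₁) {b₀ : ℝ}
    (hb₀ : 0 < b₀) (hR : b₀ < R u) :
    ¬ ∃ w : ℂ, ∀ t : ℂ, b₀ < t.im → t.im < R u → exp (2 * Real.pi * I * Tu θ n u t) = w := by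
  rintro ⟨w, hw⟩
  have hSo : IsOpen (Sl b₀ (R u)) := isOpen_Sl _ _
  have hsub : Sl b₀ (R u) ⊆ {t : ℂ | |t.im| < R u} := by
    intro t ht
    show |t.im| < R u
    rw [abs_of_pos (hb₀.trans ht.1)]
    exact ht.2
  have hd : DifferentiableOn ℂ (Tu θ n u) (Sl b₀ (R u)) := (tu_diff hB hu).mono hsub
  -- the derivative vanishes
  have hder : ∀ t ∈ Sl b₀ (R u), deriv (Tu θ n u) t = 0 := by
    intro t ht
    have h1 : HasDerivAt (Tu θ n u) (deriv (Tu θ n u) t) t :=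
      (hd.differentiableAt (hSo.mem_nhds ht)).hasDerivAt
    have h2 := (h1.const_mul (2 * Real.pi * I)).cexp
    have h3 : (fun t => exp (2 * Real.pi * I * Tu θ n u t)) =ᶠ[𝓝 t] fun _ => w := by
      filter_upwards [hSo.mem_nhds ht] with t' ht'
      exact hw t' ht'.1 ht'.2
    have h4 := h2.congr_of_eventuallyEq h3.symm
    have h5 := h4.unique (hasDerivAt_const t w)
    have h6 : exp (2 * Real.pi * I * Tu θ n u t) ≠ 0 := exp_ne_zero _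
    have h7 := (mul_eq_zero.mp h5).resolve_left h6
    exact (mul_eq_zero.mp h7).resolve_left Complex.two_pi_I_ne_zero
  set t₀ : ℂ := (((b₀ + R u) / 2 : ℝ) : ℂ) * I with ht₀
  have ht₀i : t₀.im = (b₀ + R u) / 2 := by simp [ht₀]
  have hm0 : t₀ ∈ Sl b₀ (R u) := ⟨by rw [ht₀i]; linarith, by rw [ht₀i]; linarith⟩
  have hm1 : t₀ + 1 ∈ Sl b₀ (R u) := by
    have : (t₀ + 1).im = t₀.im := by simp
    exact ⟨by rw [this]; exact hm0.1, by rw [this]; exact hm0.2⟩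
  have h8 : Tu θ n u (t₀ + 1) = Tu θ n u t₀ :=
    hSo.is_const_of_deriv_eq_zero (convex_Sl _ _).isPreconnected hd hder hm1 hm0
  have h9 : Tu θ n u (t₀ + 1) = Tu θ n u t₀ + 1 := by
    have h10 := hB.pc.per _ _ (tu_Pd (n := n) (hsub hm0) hu)
    simp only [Tu, Th]
    rw [← h10]
    congr 2
    ring
  rw [h9] at h8
  simp at h8

theorem wn_real {ε b₀ : ℝ} (hu : |u| < e₁) (hε : 0 < ε) {t : ℂ} (h1 : b₀ < t.im)
    (h2 : t.im < R u) : (t, (u : ℂ)) ∈ Wn R e₁ ε b₀ n := by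
  have hn : ‖(u : ℂ)‖ < e₁ := by rw [norm_real, Real.norm_eq_abs]; exact hu
  have h0 : |((u : ℂ)).im| < ε := by rw [ofReal_im, abs_zero]; exact hε
  refine ⟨⟨h1, ?_, hn, h0⟩, ⟨h1, ?_, hn, h0⟩⟩
  · show t.im + n * ((u : ℂ)).im < R u
    rw [ofReal_im, mul_zero, add_zero]; exact h2
  · show t.im + ((n - 1 : ℤ) : ℝ) * ((u : ℂ)).im < R u
    rw [ofReal_im, mul_zero, add_zero]; exact h2

end

/-- **row N1** -/
theorem wallsAe_of (hW : A5.PW) (hA : A5.PAI) (hI : HIae) : WallsAe := by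
  intro κ Λ b H Φ r e α p J F q Q e₁ c₀ R A P θ he hc hB n ε b₀ m Ψ S Pt c k y₁ y₂ s s' G
  obtain ⟨B, K, al, pp, th, J', hth, hI'⟩ := hI he hc hB G
  have hRu : ∀ u ∈ S, (Pt u).im = R u := G.Pi
  have key := walls_of hW hA G.hy hI' (fun u hu => by
    rintro ⟨w, hw⟩
    refine tu_nc (n := n) hB (G.Se u hu) G.b00 (G.bR u hu) ⟨w, fun t h1 h2 => ?_⟩
    rw [← hw t h1 (by rw [hRu u hu]; exact h2), hth _ (wn_real (G.Se u hu) G.ε0 h1 h2)]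
    rfl)
  filter_upwards [key] with u hu huS
  filter_upwards [hu huS] with x hx hxI L hL
  refine hx hxI L ?_
  have hev : ∀ᶠ η : ℝ in 𝓝[>] 0, (Tu θ n u ((x : ℂ) + ((R u - η : ℝ) : ℂ) * I)).im =
      (th (A5.vp Pt x u η)).im := by
    have hpos : 0 < R u - b₀ := by linarith [G.bR u huS]
    filter_upwards [Ioo_mem_nhdsGT hpos] with η hη
    have e1 : ((x : ℂ) + ((R u - η : ℝ) : ℂ) * I).im = R u - η := by simp
    have h1 : ((x : ℂ) + ((R u - η : ℝ) : ℂ) * I, (u : ℂ)) ∈ Wn R e₁ ε b₀ n :=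
      wn_real (G.Se u huS) G.ε0 (by rw [e1]; linarith [hη.2]) (by rw [e1]; linarith [hη.1])
    have h2 := hth _ h1
    have h3 : A5.vp Pt x u η = ((x : ℂ) + ((R u - η : ℝ) : ℂ) * I, (u : ℂ)) := by
      simp only [A5.vp, hRu u huS]
    rw [h3, h2]
    rfl
  exact hL.congr' hev

end Vale.Agent.P097.H434
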