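import Vale.Agent.P097.TC.Defs
import Vale.Agent.P097.H877.Bd.Priv

/-!
# Lusin-Privalov in slices, and row `TC.R2n`

`privalov2` : two-variable (slice) version of Lusin-Privalov, for an arbitrary set of feet.
`ae_not_tendsto` : a non-constant holomorphic function on the local tube tends to a given value
along cones of the real slices only over a null set of feet.
`r2n` : `TC.R2n`.
-/

open Complex Metric Filter Topology Set MeasureTheory
open scoped ComplexConjugate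

namespace Vale.Agent.P097.H434

open Vale.Agent.P097.TC Vale.Agent.P097.H877.Bd

/-- zeros of a holomorphic function on a connected open set are countable -/
theorem zeros_countable {U : Set ℂ} (hU : IsOpen U) (hc : IsPreconnected U) {g : ℂ → ℂ}
    (hg : DifferentiableOn ℂ g U) (h0 : ∃ z ∈ U, g z ≠ 0) : {z | z ∈ U ∧ g z = 0}.Countable := by
  obtain ⟨z₀, hz₀, hg0⟩ := h0
  have h1 := (hg.analyticOnNhd hU).preimage_zero_mem_codiscreteWithin hg0 hz₀ ⟨⟨z₀, hz₀⟩, hc⟩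
  have h2 : ({z | z ∈ U ∧ g z = 0}ᶜ : Set ℂ) ∈ codiscreteWithin U := by
    filter_upwards [h1] with z hz hz'
    exact hz hz'.2
  have h3 : IsDiscrete ({z | z ∈ U ∧ g z = 0} ∩ U) := isDiscrete_of_codiscreteWithin h2
  have h4 : {z | z ∈ U ∧ g z = 0} ∩ U = {z | z ∈ U ∧ g z = 0} :=
    inter_eq_self_of_subset_left fun z hz => hz.1
  rw [h4] at h3
  exact (HereditarilyLindelofSpace.isLindelof _).countable_of_isDiscrete h3

/-- the slice point -/
def sp (e : ℝ × ℝ) (v : ℂ) : ℂ × ℂ := ((e.1 : ℂ) + v, (e.2 : ℂ))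

theorem continuous_sp : Continuous fun a : (ℝ × ℝ) × ℂ => sp a.1 a.2 := by
  unfold sp
  fun_prop

theorem cone_shift {k h x : ℝ} {v : ℂ} : (x : ℂ) + v ∈ cone k h x ↔ v ∈ cone k h 0 := by
  simp [cone]

theorem cone_shift' {k h x : ℝ} {z : ℂ} : z ∈ cone k h x ↔ z - x ∈ cone k h 0 := by
  simp [cone]

/-- feet whose slice cone lies in `D` -/
def Gd (D : Set (ℂ × ℂ)) (k h : ℝ) : Set (ℝ × ℝ) := {e | ∀ v ∈ cone k h 0, sp e v ∈ D}

/-- feet with a bound on the part in `D` of the slice cone -/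
def Cb (D : Set (ℂ × ℂ)) (f : ℂ × ℂ → ℂ) (k h ε : ℝ) : Set (ℝ × ℝ) :=
  {e | ∀ v ∈ cone k h 0, sp e v ∈ D → ‖f (sp e v)‖ ≤ ε}

theorem measurableSet_Gd {D : Set (ℂ × ℂ)} (hD : IsOpen D) (k h : ℝ) :
    MeasurableSet (Gd D k h) := by
  have hco : IsOpen (cone k h 0) := isOpen_cone _ _ _
  have hls : LocallyCompactSpace (cone k h 0) := hco.locallyCompactSpace
  have hss : SigmaCompactSpace (cone k h 0) := inferInstance
  obtain ⟨K, hK, hKu⟩ := isSigmaCompact_iff_sigmaCompactSpace.mpr hss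
  have : Gd D k h = ⋂ n, {e | ∀ v ∈ K n, sp e v ∈ D} := by
    ext e
    simp only [Gd, mem_iInter, Set.mem_ofPred_eq]
    constructor
    · intro h n v hv
      exact h v (hKu ▸ mem_iUnion.mpr ⟨n, hv⟩)
    · intro h v hv
      rw [← hKu] at hv
      obtain ⟨n, hn⟩ := mem_iUnion.mp hv
      exact h n v hn
  rw [this]
  refine MeasurableSet.iInter fun n => IsOpen.measurableSet ?_
  rw [isOpen_iff_mem_nhds]
  intro e he
  have h1 := (hK n).eventually_forall_of_forall_eventually (x₀ := e)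
    (P := fun (e : ℝ × ℝ) (v : ℂ) => sp e v ∈ D) (fun v hv => ?_)
  · exact h1
  · exact continuous_sp.continuousAt.eventually (hD.mem_nhds (he v hv))

theorem isClosed_Cb {D : Set (ℂ × ℂ)} (hD : IsOpen D) {f : ℂ × ℂ → ℂ}
    (hf : ContinuousOn f D) (k h ε : ℝ) : IsClosed (Cb D f k h ε) := by
  rw [← isOpen_compl_iff, isOpen_iff_mem_nhds]
  intro e he
  simp only [Cb, mem_compl_iff, Set.mem_ofPred_eq, not_forall] at he
  obtain ⟨v, hv, hvD, hlt⟩ := he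
  push Not at hlt
  have hc : ContinuousAt (fun e : ℝ × ℝ => sp e v) e := by
    unfold sp; fun_prop
  have h1 : ∀ᶠ e' in 𝓝 e, sp e' v ∈ D := hc.eventually (hD.mem_nhds hvD)
  have h2 : ContinuousAt (fun e : ℝ × ℝ => ‖f (sp e v)‖) e :=
    (ContinuousAt.comp (f := fun e : ℝ × ℝ => sp e v)
      (hf.continuousAt (hD.mem_nhds hvD)) hc).norm
  filter_upwards [h1, h2.eventually_const_lt hlt] with e' h3 h4
  simp only [Cb, mem_compl_iff, Set.mem_ofPred_eq, not_forall]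
  exact ⟨v, hv, h3, not_le.mpr h4⟩

/-- **Lusin-Privalov in slices.**  `f` holomorphic on the open set `D ⊆ ℂ × ℂ`; over every foot
`e ∈ E` there is a cone of the slice `ζ = e.2` in `D` along which `f → 0`.  Then for almost every
`e ∈ E` the function `f` vanishes on a cone of the slice.  `E` is arbitrary. -/
theorem privalov2 {D : Set (ℂ × ℂ)} (hD : IsOpen D) {f : ℂ × ℂ → ℂ}
    (hf : DifferentiableOn ℂ f D) {E : Set (ℝ × ℝ)}
    (hE : ∀ e ∈ E, ∃ k > 0, ∃ h > 0, (∀ z ∈ cone k h e.1, (z, (e.2 : ℂ)) ∈ D) ∧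
      Tendsto (fun z : ℂ => f (z, (e.2 : ℂ))) (𝓝[cone k h e.1] (e.1 : ℂ)) (𝓝 0)) :
    ∀ᵐ e : ℝ × ℝ, e ∈ E → ∃ k > 0, ∃ h > 0, ∀ z ∈ cone k h e.1,
      (z, (e.2 : ℂ)) ∈ D ∧ f (z, (e.2 : ℂ)) = 0 := by
  set r : ℕ → ℝ := fun n => 1 / ((n : ℝ) + 1) with hr
  have hr0 : ∀ n, 0 < r n := fun n => by simp only [hr]; positivity
  set A : Set (ℝ × ℝ) := ⋃ n, (Gd D (r n) (r n) ∩ ⋂ m, ⋃ l, Cb D f (r n) (r l) (r m)) with hA
  set P : Set (ℝ × ℝ) := ⋃ n, (Gd D (r n) (r n) ∩ Cb D f (r n) (r n) 0) with hP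
  have hAm : MeasurableSet A := by
    refine MeasurableSet.iUnion fun n => (measurableSet_Gd hD _ _).inter ?_
    exact MeasurableSet.iInter fun m => MeasurableSet.iUnion fun l =>
      (isClosed_Cb hD hf.continuousOn _ _ _).measurableSet
  have hPm : MeasurableSet P := MeasurableSet.iUnion fun n =>
    (measurableSet_Gd hD _ _).inter (isClosed_Cb hD hf.continuousOn _ _ _).measurableSet
  have hEA : E ⊆ A := by
    intro e he
    obtain ⟨k, hk, h, hh, hc, ht⟩ := hE e he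
    obtain ⟨n, hn⟩ := exists_nat_one_div_lt (lt_min hk hh)
    have hnk : r n ≤ k := (hn.trans_le (min_le_left _ _)).le
    have hnh : r n ≤ h := (hn.trans_le (min_le_right _ _)).le
    have hsub : cone (r n) (r n) e.1 ⊆ cone k h e.1 := cone_mono (hr0 n) hnk hnh
    refine mem_iUnion.mpr ⟨n, fun v hv => hc _ (hsub (cone_shift.mpr hv)), ?_⟩
    refine mem_iInter.mpr fun m => ?_
    have h1 : ∀ᶠ z in 𝓝[cone k h e.1] (e.1 : ℂ), ‖f (z, (e.2 : ℂ))‖ < r m := by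
      have := ht.norm
      rw [norm_zero] at this
      exact this.eventually (gt_mem_nhds (hr0 m))
    rw [eventually_nhdsWithin_iff, Metric.eventually_nhds_iff] at h1
    obtain ⟨δ, hδ, h2⟩ := h1
    obtain ⟨l, hl⟩ := exists_nat_one_div_lt (show 0 < min (r n) (δ / 2) from
      lt_min (hr0 n) (by positivity))
    refine mem_iUnion.mpr ⟨l, fun v hv _ => (h2 ?_ ?_).le⟩
    · rw [dist_eq_norm, add_sub_cancel_left]
      have h3 := cone_im_pos (hr0 n) hv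
      have h4 : |v.re| < r n * v.im := by simpa using hv.1
      have h5 : v.im < r l := hv.2
      have h6 : r l < δ / 2 := hl.trans_le (min_le_right _ _)
      have h7 : r n ≤ 1 := by
        simp only [hr]
        rw [div_le_one (by positivity)]
        have : (0 : ℝ) ≤ n := Nat.cast_nonneg n
        linarith
      calc ‖v‖ ≤ |v.re| + |v.im| := Complex.norm_le_abs_re_add_abs_im v
        _ < δ := by
          rw [abs_of_pos h3]
          nlinarith
    · refine hsub (cone_shift.mpr (cone_mono (hr0 n) le_rfl ?_ hv))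
      exact (hl.trans_le (min_le_left _ _)).le
  have hnull : volume (A ∩ Pᶜ) = 0 := by
    have hmeas : MeasurableSet (A ∩ Pᶜ) := hAm.inter hPm.compl
    have h1 : (volume : Measure (ℝ × ℝ)) (Prod.swap ⁻¹' (A ∩ Pᶜ)) = volume (A ∩ Pᶜ) :=
      (Measure.measurePreserving_swap (μ := (volume : Measure ℝ)) (ν := (volume : Measure ℝ))
        ).measure_preimage hmeas.nullMeasurableSet
    rw [← h1, Measure.volume_eq_prod, Measure.measure_prod_null (measurable_swap hmeas)]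
    refine Filter.Eventually.of_forall fun ξ => ?_
    have hDs : MapsTo (fun z : ℂ => (z, (ξ : ℂ))) {z : ℂ | (z, (ξ : ℂ)) ∈ D} D := fun z hz => hz
    have hsl := privalov (D := {z : ℂ | (z, (ξ : ℂ)) ∈ D}) (f := fun z => f (z, (ξ : ℂ)))
      (hf.comp (by fun_prop) hDs) (E := {x : ℝ | (x, ξ) ∈ A}) (fun x hx => by
        obtain ⟨n, hn1, hn2⟩ := mem_iUnion.mp hx
        refine ⟨r n, hr0 n, r n, hr0 n, fun z hz => ?_, ?_⟩
        · have := hn1 (z - x) (cone_shift'.mp hz)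
          simpa [sp] using this
        · rw [Metric.tendsto_nhdsWithin_nhds]
          intro ε hε
          obtain ⟨m, hm⟩ := exists_nat_one_div_lt hε
          obtain ⟨l, hl⟩ := mem_iUnion.mp (mem_iInter.mp hn2 m)
          refine ⟨r l, hr0 l, fun {z} hz hd => ?_⟩
          rw [dist_zero_right]
          have hzD := hn1 (z - x) (cone_shift'.mp hz)
          have h3 : z - x ∈ cone (r n) (r l) 0 := by
            refine ⟨(cone_shift'.mp hz).1, ?_⟩
            have h4 : |(z - x).im| ≤ ‖z - x‖ := Complex.abs_im_le_norm _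
            rw [dist_eq_norm] at hd
            exact (le_abs_self _).trans_lt (h4.trans_lt hd)
          have h5 := hl (z - x) h3 hzD
          have h6 : sp (x, ξ) (z - x) = (z, (ξ : ℂ)) := by simp [sp]
          rw [h6] at h5
          exact h5.trans_lt hm)
    rw [ae_iff] at hsl
    simp only [Pi.zero_apply]
    refine measure_mono_null (fun x hx => ?_) hsl
    simp only [mem_preimage, Prod.swap_prod_mk, mem_inter_iff, mem_compl_iff] at hx
    simp only [Set.mem_ofPred_eq, Classical.not_imp]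
    refine ⟨hx.1, ?_⟩
    rintro ⟨k, hk, h, hh, hsub, hz⟩
    apply hx.2
    obtain ⟨n, hn⟩ := exists_nat_one_div_lt (lt_min hk hh)
    have hnk : r n ≤ k := (hn.trans_le (min_le_left _ _)).le
    have hnh : r n ≤ h := (hn.trans_le (min_le_right _ _)).le
    have hcs : cone (r n) (r n) x ⊆ cone k h x := cone_mono (hr0 n) hnk hnh
    refine mem_iUnion.mpr ⟨n, fun v hv => hsub (hcs (cone_shift.mpr hv)), fun v hv _ => ?_⟩
    have h7 : f (sp (x, ξ) v) = 0 := hz _ (hcs (cone_shift.mpr hv))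
    rw [h7, norm_zero]
  rw [ae_iff]
  refine measure_mono_null (fun e he => ?_) hnull
  simp only [Set.mem_ofPred_eq, Classical.not_imp] at he
  refine ⟨hEA he.1, fun hc => he.2 ?_⟩
  obtain ⟨n, hn1, hn2⟩ := mem_iUnion.mp hc
  refine ⟨r n, hr0 n, r n, hr0 n, fun z hz => ?_⟩
  have h1 := hn1 (z - e.1) (cone_shift'.mp hz)
  have h2 := hn2 (z - e.1) (cone_shift'.mp hz) h1
  have h3 : sp e (z - e.1) = (z, (e.2 : ℂ)) := by simp [sp]
  rw [h3] at h1 h2
  exact ⟨h1, norm_le_zero_iff.mp h2⟩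

/-! ### the local tube -/

theorem mem_TB {e₀ : ℝ × ℝ} {ρ k : ℝ} {z : ℂ × ℂ} : z ∈ TB e₀ ρ (K1 k) ↔
    |z.1.re - e₀.1| < ρ ∧ |z.2.re - e₀.2| < ρ ∧ |z.1.im| < ρ ∧ |z.2.im| < ρ ∧
      |z.2.im| < k * z.1.im := by
  have h1 : ft z ∈ ball e₀ ρ ↔ |z.1.re - e₀.1| < ρ ∧ |z.2.re - e₀.2| < ρ := by
    rw [mem_ball, Prod.dist_eq, max_lt_iff, Real.dist_eq, Real.dist_eq]
    rfl
  have h2 : ‖ht z‖ < ρ ↔ |z.1.im| < ρ ∧ |z.2.im| < ρ := by
    rw [Prod.norm_def, max_lt_iff, Real.norm_eq_abs, Real.norm_eq_abs]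
    rfl
  have h3 : ht z ∈ K1 k ↔ |z.2.im| < k * z.1.im := Iff.rfl
  show ft z ∈ ball e₀ ρ ∧ ‖ht z‖ < ρ ∧ ht z ∈ K1 k ↔ _
  rw [h1, h2, h3]
  tauto

theorem isOpen_TB (e₀ : ℝ × ℝ) (ρ k : ℝ) : IsOpen (TB e₀ ρ (K1 k)) := by
  have : TB e₀ ρ (K1 k) = {z : ℂ × ℂ | |z.1.re - e₀.1| < ρ} ∩ {z : ℂ × ℂ | |z.2.re - e₀.2| < ρ} ∩
      {z : ℂ × ℂ | |z.1.im| < ρ} ∩ {z : ℂ × ℂ | |z.2.im| < ρ} ∩
      {z : ℂ × ℂ | |z.2.im| < k * z.1.im} := by
    ext z
    rw [mem_TB]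
    simp only [mem_inter_iff, Set.mem_ofPred_eq]
    tauto
  rw [this]
  refine ((((isOpen_lt ?_ ?_).inter (isOpen_lt ?_ ?_)).inter (isOpen_lt ?_ ?_)).inter
    (isOpen_lt ?_ ?_)).inter (isOpen_lt ?_ ?_)
  all_goals fun_prop

/-- the strip `|Re z - x| < ρ`, `α < Im z < β` is convex -/
theorem convex_strip (x ρ α β : ℝ) :
    Convex ℝ {z : ℂ | |z.re - x| < ρ ∧ α < z.im ∧ z.im < β} := by
  have h1 : {z : ℂ | |z.re - x| < ρ ∧ α < z.im ∧ z.im < β} =
      Ioo (x - ρ) (x + ρ) ×ℂ Ioo α β := by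
    ext z
    simp only [Set.mem_ofPred_eq, Complex.mem_reProdIm, mem_Ioo, abs_lt]
    constructor
    · rintro ⟨⟨a, b⟩, c, d⟩
      exact ⟨⟨by linarith, by linarith⟩, c, d⟩
    · rintro ⟨⟨a, b⟩, c, d⟩
      exact ⟨⟨by linarith, by linarith⟩, c, d⟩
  rw [h1, Complex.reProdIm]
  exact ((convex_Ioo _ _).is_linear_preimage Complex.reLm.isLinear).inter
    ((convex_Ioo _ _).is_linear_preimage Complex.imLm.isLinear)

theorem isOpen_strip (x ρ α β : ℝ) :
    IsOpen {z : ℂ | |z.re - x| < ρ ∧ α < z.im ∧ z.im < β} := by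
  refine IsOpen.and (isOpen_lt ?_ ?_) (IsOpen.and (isOpen_lt ?_ ?_) (isOpen_lt ?_ ?_))
  all_goals fun_prop

/-- a holomorphic function on the local tube which is not identically `c` tends to `c` along
cones of the real slices only over a null set of feet -/
theorem ae_not_tendsto {f : ℂ × ℂ → ℂ} {e₀ : ℝ × ℝ} {ρ k : ℝ} (hρ : 0 < ρ) (hk : 0 < k)
    (hf : DifferentiableOn ℂ f (TB e₀ ρ (K1 k))) {c : ℂ}
    (hnc : ¬ ∀ z ∈ TB e₀ ρ (K1 k), f z = c) :
    ∀ᵐ e : ℝ × ℝ, e ∈ ball e₀ ρ → ∀ κ > 0, ∀ h > 0,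
      ¬ Tendsto (fun z : ℂ => f (z, (e.2 : ℂ))) (𝓝[cone κ h e.1] (e.1 : ℂ)) (𝓝 c) := by
  push Not at hnc
  obtain ⟨z₁, hz₁, hne⟩ := hnc
  have hz₁' := mem_TB.mp hz₁
  set T := TB e₀ ρ (K1 k) with hT
  set Ds : Set ℂ := {z : ℂ | |z.re - e₀.1| < ρ ∧ 0 < z.im ∧ z.im < ρ} with hDs
  have hsl : ∀ (z : ℂ) (ξ : ℝ), |ξ - e₀.2| < ρ → z ∈ Ds → (z, (ξ : ℂ)) ∈ T := by
    intro z ξ hξ hz
    refine mem_TB.mpr ⟨hz.1, by simpa using hξ, ?_, ?_, ?_⟩
    · rw [abs_of_pos hz.2.1]; exact hz.2.2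
    · simpa using hρ
    · simpa using mul_pos hk hz.2.1
  have hsl' : ∀ (z : ℂ) (ξ : ℝ), (z, (ξ : ℂ)) ∈ T → z ∈ Ds ∧ |ξ - e₀.2| < ρ := by
    intro z ξ h
    obtain ⟨h1, h2, h3, h4, h5⟩ := mem_TB.mp h
    have h6 : 0 < z.im := by
      simp only [Complex.ofReal_im, abs_zero] at h5
      exact pos_of_mul_pos_right h5 hk.le
    refine ⟨⟨h1, h6, ?_⟩, by simpa using h2⟩
    rwa [abs_of_pos h6] at h3
  have hz₁im : 0 < z₁.1.im := by
    have := (abs_nonneg _).trans_lt hz₁'.2.2.2.2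
    exact pos_of_mul_pos_right this hk.le
  have hz₁D : z₁.1 ∈ Ds := by
    refine ⟨hz₁'.1, hz₁im, ?_⟩
    have := hz₁'.2.2.1
    rwa [abs_of_pos hz₁im] at this
  -- the bad slices
  set Z : Set ℝ := {ξ | |ξ - e₀.2| < ρ ∧ ∀ z ∈ Ds, f (z, (ξ : ℂ)) = c} with hZ
  have hZc : Z.Countable := by
    set m : ℝ := min ρ (k * z₁.1.im) with hm
    set Dz : Set ℂ := {ζ : ℂ | |ζ.re - e₀.2| < ρ ∧ -m < ζ.im ∧ ζ.im < m} with hDz
    have hmem : ∀ ζ ∈ Dz, (z₁.1, ζ) ∈ T := by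
      intro ζ hζ
      have h1 : |ζ.im| < m := abs_lt.mpr hζ.2
      exact mem_TB.mpr ⟨hz₁'.1, hζ.1, hz₁'.2.2.1, h1.trans_le (min_le_left _ _),
        h1.trans_le (min_le_right _ _)⟩
    have hm0 : 0 < m := lt_min hρ (mul_pos hk hz₁im)
    have hcount : {ζ | ζ ∈ Dz ∧ f (z₁.1, ζ) - c = 0}.Countable := by
      refine zeros_countable (isOpen_strip _ _ _ _) (convex_strip _ _ _ _).isPreconnected ?_ ?_
      · have hg : DifferentiableOn ℂ (fun ζ => f (z₁.1, ζ)) Dz :=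
          hf.comp (by fun_prop) (fun ζ hζ => hmem ζ hζ)
        exact hg.sub_const c
      · refine ⟨z₁.2, ⟨hz₁'.2.1, ?_⟩, ?_⟩
        · exact abs_lt.mp (lt_min hz₁'.2.2.2.1 hz₁'.2.2.2.2)
        · exact sub_ne_zero.mpr hne
    have hpre : Z ⊆ (fun ξ : ℝ => (ξ : ℂ)) ⁻¹' {ζ | ζ ∈ Dz ∧ f (z₁.1, ζ) - c = 0} := by
      intro ξ hξ
      refine ⟨⟨by simpa using hξ.1, ?_⟩, ?_⟩
      · simpa using hm0
      · exact sub_eq_zero.mpr (hξ.2 _ hz₁D)
    exact (hcount.preimage Complex.ofReal_injective).mono hpre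
  have hZae : ∀ᵐ e : ℝ × ℝ, e.2 ∉ Z := by
    have h1 : ∀ᵐ ξ : ℝ, ξ ∉ Z := by
      rw [ae_iff]
      simpa using hZc.measure_zero volume
    exact (Measure.quasiMeasurePreserving_snd (μ := (volume : Measure ℝ))
      (ν := (volume : Measure ℝ))).ae h1
  have hpr := privalov2 (isOpen_TB e₀ ρ k) (f := fun z => f z - c) (hf.sub_const c)
    (E := {e | e ∈ ball e₀ ρ ∧ ∃ κ > 0, ∃ h > 0,
      Tendsto (fun z : ℂ => f (z, (e.2 : ℂ))) (𝓝[cone κ h e.1] (e.1 : ℂ)) (𝓝 c)}) ?_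
  · filter_upwards [hpr, hZae] with e h1 h2 heb κ hκ h hh ht
    obtain ⟨κ', hκ', h', hh', hz⟩ := h1 ⟨heb, κ, hκ, h, hh, ht⟩
    -- a point of the cone
    set p : ℂ := (e.1 : ℂ) + ((h' / 2 : ℝ) : ℂ) * I with hp
    have hpc : p ∈ cone κ' h' e.1 := by
      refine ⟨?_, ?_⟩
      · simp only [hp, Complex.add_re, Complex.ofReal_re, Complex.mul_re, Complex.I_re, mul_zero,
          Complex.ofReal_im, Complex.I_im, mul_one, sub_self, add_zero, abs_zero, Complex.add_im,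
          Complex.mul_im, zero_add]
        positivity
      · simp only [hp, Complex.add_im, Complex.ofReal_im, Complex.mul_im, Complex.ofReal_re,
          Complex.I_im, mul_one, Complex.I_re, mul_zero, add_zero, zero_add]
        linarith
    have hcD : cone κ' h' e.1 ⊆ Ds := fun z hz' => (hsl' z e.2 (hz z hz').1).1
    have hξ : |e.2 - e₀.2| < ρ := (hsl' p e.2 (hz p hpc).1).2
    apply h2
    refine ⟨hξ, fun z hzD => ?_⟩
    have han : AnalyticOnNhd ℂ (fun z => f (z, (e.2 : ℂ)) - c) Ds := by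
      refine DifferentiableOn.analyticOnNhd ?_ (isOpen_strip _ _ _ _)
      have hg : DifferentiableOn ℂ (fun z => f (z, (e.2 : ℂ))) Ds :=
        hf.comp (by fun_prop) (fun z hz' => hsl z e.2 hξ hz')
      exact hg.sub_const c
    have h3 := han.eqOn_zero_of_preconnected_of_eventuallyEq_zero
      (convex_strip _ _ _ _).isPreconnected (hcD hpc) ?_ hzD
    · exact sub_eq_zero.mp h3
    · filter_upwards [(isOpen_cone κ' h' e.1).mem_nhds hpc] with z' hz'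
      exact (hz z' hz').2
  · rintro e ⟨heb, κ, hκ, h, hh, ht⟩
    have heb' : |e.1 - e₀.1| < ρ ∧ |e.2 - e₀.2| < ρ := by
      rw [mem_ball, Prod.dist_eq, max_lt_iff, Real.dist_eq, Real.dist_eq] at heb
      exact heb
    set h' : ℝ := min h (min ρ ((ρ - |e.1 - e₀.1|) / κ)) with hh'
    have hh'0 : 0 < h' := lt_min hh (lt_min hρ (div_pos (by linarith [heb'.1]) hκ))
    have hsub : cone κ h' e.1 ⊆ cone κ h e.1 := cone_mono hκ le_rfl (min_le_left _ _)
    refine ⟨κ, hκ, h', hh'0, fun z hz => hsl z e.2 heb'.2 ⟨?_, cone_im_pos hκ hz, ?_⟩, ?_⟩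
    · have h4 : z.im < (ρ - |e.1 - e₀.1|) / κ :=
        hz.2.trans_le ((min_le_right _ _).trans (min_le_right _ _))
      rw [lt_div_iff₀ hκ] at h4
      have h5 := hz.1
      calc |z.re - e₀.1| ≤ |z.re - e.1| + |e.1 - e₀.1| := abs_sub_le _ _ _
        _ < ρ := by nlinarith
    · exact hz.2.trans_le ((min_le_right _ _).trans (min_le_left _ _))
    · have h6 : Tendsto (fun z : ℂ => f (z, (e.2 : ℂ)) - c) (𝓝[cone κ h' e.1] (e.1 : ℂ))
          (𝓝 (c - c)) := (ht.mono_left (nhdsWithin_mono _ hsub)).sub_const c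
      rwa [sub_self] at h6

/-- the same with a countable set of values -/
theorem ae_not_tendsto_countable {f : ℂ × ℂ → ℂ} {e₀ : ℝ × ℝ} {ρ k : ℝ} (hρ : 0 < ρ) (hk : 0 < k)
    (hf : DifferentiableOn ℂ f (TB e₀ ρ (K1 k))) {C : Set ℂ} (hC : C.Countable)
    (hnc : ∀ c ∈ C, ¬ ∀ z ∈ TB e₀ ρ (K1 k), f z = c) :
    ∀ᵐ e : ℝ × ℝ, e ∈ ball e₀ ρ → ∀ c ∈ C, ∀ κ > 0, ∀ h > 0,
      ¬ Tendsto (fun z : ℂ => f (z, (e.2 : ℂ))) (𝓝[cone κ h e.1] (e.1 : ℂ)) (𝓝 c) := by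
  have h1 : ∀ᵐ e : ℝ × ℝ, ∀ c ∈ C, e ∈ ball e₀ ρ → ∀ κ > 0, ∀ h > 0,
      ¬ Tendsto (fun z : ℂ => f (z, (e.2 : ℂ))) (𝓝[cone κ h e.1] (e.1 : ℂ)) (𝓝 c) :=
    (ae_ball_iff hC).mpr fun c hc => ae_not_tendsto hρ hk hf (hnc c hc)
  filter_upwards [h1] with e he heb c hc
  exact he c hc heb

/-- non-tangential limits in the sense of `TC.NT` are limits along the cone of the slice -/
theorem tendsto_of_NT {f : ℂ × ℂ → ℂ} {k : ℝ} (hk : 0 < k) {e : ℝ × ℝ} {x : ℂ}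
    (h : NT f k e x) :
    Tendsto (fun z : ℂ => f (z, (e.2 : ℂ))) (𝓝[cone (1 / 2) 1 e.1] (e.1 : ℂ)) (𝓝 x) := by
  -- the compact set of directions
  set Kc : Set (ℂ × ℂ) := {z | |z.1.re| ≤ 1 / 2 ∧ z.1.im = 1 ∧ z.2 = 0} with hKc
  have hKcc : IsCompact Kc := by
    have h1 : Kc = (fun t : ℝ => (((t : ℂ) + I, (0 : ℂ)) : ℂ × ℂ)) '' Icc (-(1 / 2)) (1 / 2) := by
      ext z
      simp only [hKc, Set.mem_ofPred_eq, mem_image, mem_Icc]
      constructor
      · rintro ⟨h1, h2, h3⟩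
        refine ⟨z.1.re, abs_le.mp h1, ?_⟩
        refine Prod.ext ?_ h3.symm
        apply Complex.ext <;> simp [h2]
      · rintro ⟨t, ht, rfl⟩
        refine ⟨?_, ?_, rfl⟩
        · simpa using abs_le.mpr ht
        · simp
    rw [h1]
    exact isCompact_Icc.image (by fun_prop)
  rw [Metric.tendsto_nhdsWithin_nhds]
  intro ε hε
  -- uniformity over the compact
  have huni : ∀ᶠ r : ℝ in 𝓝[>] 0, ∀ z ∈ Kc, dist (f (bl e r z)) x < ε := by
    have h2 : ∀ z ∈ Kc, ∀ᶠ a : ℝ × (ℂ × ℂ) in 𝓝[>] 0 ×ˢ 𝓝 z, dist (f (bl e a.1 a.2)) x < ε := by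
      intro z hz
      have hzT : z ∈ Tc (K1 k) := by
        show |z.2.im| < k * z.1.im
        rw [hz.2.1, hz.2.2]
        simpa using hk
      exact (h z hzT).eventually (ball_mem_nhds x hε)
    have h3 := hKcc.mem_prod_nhdsSet_of_forall (l := 𝓝[>] (0 : ℝ))
      (s := {a : ℝ × (ℂ × ℂ) | dist (f (bl e a.1 a.2)) x < ε}) (fun z hz => h2 z hz)
    obtain ⟨t₁, ht₁, t₂, ht₂, hsub⟩ := Filter.mem_prod_iff.mp h3
    filter_upwards [ht₁] with r hr z hz
    exact hsub (show (r, z) ∈ t₁ ×ˢ t₂ from ⟨hr, subset_of_mem_nhdsSet ht₂ hz⟩)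
  obtain ⟨δ, hδ, hδ2⟩ := mem_nhdsGT_iff_exists_Ioo_subset.mp huni
  have hδ0 : (0 : ℝ) < δ := hδ
  refine ⟨δ, hδ0, fun {z} hz hd => ?_⟩
  have him : 0 < z.im := cone_im_pos (by norm_num) hz
  have h3 : z.im < δ := by
    have h4 : |(z - e.1).im| ≤ ‖z - e.1‖ := Complex.abs_im_le_norm _
    rw [dist_eq_norm] at hd
    have h5 : (z - e.1).im = z.im := by simp
    rw [h5] at h4
    exact (le_abs_self _).trans_lt (h4.trans_lt hd)
  set w : ℂ × ℂ := ((z - e.1) / (z.im : ℂ), 0) with hw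
  have hne : (z.im : ℂ) ≠ 0 := by exact_mod_cast him.ne'
  have hwK : w ∈ Kc := by
    refine ⟨?_, ?_, rfl⟩
    · show |((z - e.1) / (z.im : ℂ)).re| ≤ 1 / 2
      rw [Complex.div_ofReal_re, abs_div, abs_of_pos him, div_le_iff₀ him]
      have := hz.1.le
      simpa using this
    · show ((z - e.1) / (z.im : ℂ)).im = 1
      rw [Complex.div_ofReal_im]
      simp [him.ne']
  have h6 := hδ2 ⟨him, h3⟩ w hwK
  have h7 : bl e z.im w = (z, (e.2 : ℂ)) := by
    simp only [bl, hw, mul_zero, add_zero]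
    refine Prod.ext ?_ rfl
    show (e.1 : ℂ) + z.im * ((z - e.1) / z.im) = z
    field_simp
    ring
  rw [h7] at h6
  exact h6

/-- the zeros of `F'` in the strip are countable -/
theorem countable_R2 {Λ b : ℝ} {F q : ℂ → ℂ} (h : Cv Λ b F q) :
    {x | x ∈ Sb b ∧ deriv F x = 0}.Countable := by
  have hSo : IsOpen (Sb b) := isOpen_lt (by fun_prop) (by fun_prop)
  have hSc : Convex ℝ (Sb b) := by
    have h1 : Sb b = Complex.im ⁻¹' (Ioo (-b) b) := by
      ext z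
      simp only [Sb, Set.mem_ofPred_eq, mem_preimage, mem_Ioo, abs_lt]
    rw [h1]
    exact (convex_Ioo _ _).is_linear_preimage Complex.imLm.isLinear
  refine zeros_countable hSo hSc.isPreconnected
    ((h.dF.analyticOnNhd hSo).deriv.differentiableOn) ?_
  by_contra hcon
  push Not at hcon
  have h0 : (0 : ℂ) ∈ Sb b := by
    show |(0 : ℂ).im| < b
    simpa using h.b0
  have h1 := h.wr 0 h0
  have h2 : deriv (deriv F) 0 = 0 := by
    have h3 : deriv F =ᶠ[𝓝 0] fun _ => (0 : ℂ) := by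
      filter_upwards [hSo.mem_nhds h0] with z hz
      exact hcon z hz
    rw [h3.deriv_eq]
    simp
  rw [hcon 0 h0, h2] at h1
  simp only [mul_zero, ne_eq, OfNat.ofNat_ne_zero, not_false_eq_true, zero_pow, sub_self,
    add_zero] at h1
  have h4 : ((Λ : ℂ)) = 0 := by
    by_contra h5
    exact pow_ne_zero 3 h5 h1.symm
  exact h.Λ0.ne' (by exact_mod_cast h4)

/-- **row A4.7** -/
theorem r2n : R2n := by
  intro Λ b F q e₀ ρ k al p th hLW hnc
  have h1 := ae_not_tendsto_countable hLW.ρ0 hLW.k0 hLW.dth (countable_R2 hLW.cv)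
    (fun c _ => hnc c)
  filter_upwards [h1] with e he heb x hx hNT hF
  exact he heb x ⟨hx, hF⟩ (1 / 2) (by norm_num) 1 one_pos (tendsto_of_NT hLW.k0 hNT)

end Vale.Agent.P097.H434
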