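import Mathlib

/-!
Combinatorics of step (4) of the proof of (A4) without goodness (helper589): infinitely many
good scales.  `V n` is the value of the harmonic function `U` at height `2 ^ (-n)`.
-/

namespace Vale.Agent.P097.H434

open Finset Filter

/-- number of consecutive indices just before `n` at which `P` fails -/
noncomputable def run (P : ℕ → Prop) : ℕ → ℕ
  | 0 => 0
  | n + 1 => open Classical in if P n then 0 else run P n + 1

theorem run_le (P : ℕ → Prop) (n : ℕ) : run P n ≤ n := by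
  induction n with
  | zero => simp [run]
  | succ n ih =>
    rw [run]
    split_ifs
    · omega
    · omega

theorem run_not (P : ℕ → Prop) (n : ℕ) : ∀ m, n ≤ m + run P n → m < n → ¬ P m := by
  induction n with
  | zero => intro m _ h; omega
  | succ n ih =>
    intro m h1 h2
    rw [run] at h1
    by_cases hP : P n
    · rw [if_pos hP] at h1; omega
    · rw [if_neg hP] at h1
      rcases Nat.lt_or_ge m n with h | h
      · exact ih m (by omega) h
      · have : m = n := by omega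
        rw [this]; exact hP

theorem run_lt (P : ℕ → Prop) {n b : ℕ} (hb : P b) (hbn : b < n) : run P n + b + 1 ≤ n := by
  by_contra hc
  exact run_not P n b (by omega) hbn hb

theorem le_run (P : ℕ → Prop) (b : ℕ) : ∀ m, m ≤ b → (∀ k, m ≤ k → k < b → ¬ P k) →
    b ≤ m + run P b := by
  induction b with
  | zero => intro m _ _; omega
  | succ b ih =>
    intro m hm h
    rcases Nat.lt_or_ge b m with h1 | h1
    · omega
    · have h2 := ih m h1 (fun k hk hk' => h k hk (by omega))
      rw [run, if_neg (h b h1 (by omega))]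
      omega

/-- going back through the ends of long excursions -/
theorem exists_good (P : ℕ → Prop) (B : ℕ → Prop)
    (hB : ∀ n, P n → B n → ∃ b, b < n ∧ P b ∧ 8 * (n - b) ≤ run P b) :
    ∀ n, P n → ∃ n', n' ≤ n ∧ P n' ∧ ¬ B n' ∧ 7 * (n - n') + run P n ≤ run P n' := by
  intro n
  induction n using Nat.strong_induction_on with
  | _ n ih =>
    intro hP
    by_cases hbad : B n
    · obtain ⟨b, hbn, hPb, h8⟩ := hB n hP hbad
      obtain ⟨n', h1, h2, h3, h4⟩ := ih b hbn hPb
      have h5 := run_lt P hPb hbn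
      exact ⟨n', by omega, h2, h3, by omega⟩
    · exact ⟨n, le_refl _, hP, hbad, by omega⟩

section Main

variable {V : ℕ → ℝ} {V0 κ θ : ℝ}

theorem growth (hV0 : 1 ≤ V0) (hκ : 0 ≤ κ)
    (H1 : ∀ n, |V n| ≤ (2 : ℝ) ^ (1 + κ) * max |V (n + 1)| V0) {b : ℕ} (hb : |V b| ≤ V0) :
    ∀ j, j ≤ b → |V (b - j)| ≤ V0 * (2 : ℝ) ^ ((1 + κ) * (j : ℝ)) := by
  intro j
  induction j with
  | zero => intro _; simpa using hb
  | succ j ih =>
    intro hj
    have h1 := ih (by omega)
    have h2 := H1 (b - (j + 1))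
    have h3 : b - (j + 1) + 1 = b - j := by omega
    rw [h3] at h2
    have h4 : (1 : ℝ) ≤ (2 : ℝ) ^ ((1 + κ) * (j : ℝ)) :=
      Real.one_le_rpow (by norm_num) (by positivity)
    have h5 : max |V (b - j)| V0 ≤ V0 * (2 : ℝ) ^ ((1 + κ) * (j : ℝ)) := by
      apply max_le h1
      nlinarith
    calc |V (b - (j + 1))| ≤ (2 : ℝ) ^ (1 + κ) * max |V (b - j)| V0 := h2
      _ ≤ (2 : ℝ) ^ (1 + κ) * (V0 * (2 : ℝ) ^ ((1 + κ) * (j : ℝ))) := by
          gcongr
      _ = V0 * ((2 : ℝ) ^ (1 + κ) * (2 : ℝ) ^ ((1 + κ) * (j : ℝ))) := by ring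
      _ = V0 * (2 : ℝ) ^ ((1 + κ) * ((j + 1 : ℕ) : ℝ)) := by
          rw [← Real.rpow_add (by norm_num)]
          congr 2
          push_cast
          ring

/-- one sign -/
theorem sum_le (hV0 : 1 ≤ V0) (hκ : 0 ≤ κ) (hδ : 1 + κ - θ ≤ 1 / 32)
    (H1 : ∀ n, |V n| ≤ (2 : ℝ) ^ (1 + κ) * max |V (n + 1)| V0)
    (H2 : ∀ n, V0 < |V n| → V0 < |V (n + 1)| → 0 < V n → 0 < V (n + 1))
    {n : ℕ} (hn : |V n| ≤ V0)
    (hg : ∀ b, b ≤ n → |V b| ≤ V0 → 0 < run (fun k => |V k| ≤ V0) b → 0 < V (b - 1) →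
      run (fun k => |V k| ≤ V0) b < 8 * (n - b)) :
    ∑ m ∈ range (n + 1), (2 : ℝ) ^ (-θ * ((n : ℝ) - m)) * max (V m) 0 ≤
      V0 / (1 - (2 : ℝ) ^ (-(1 / 16 : ℝ))) := by
  set r : ℝ := (2 : ℝ) ^ (-(1 / 16 : ℝ)) with hr
  have hr0 : 0 < r := by positivity
  have hr1 : r < 1 := Real.rpow_lt_one_of_one_lt_of_neg (by norm_num) (by norm_num)
  have hpow : ∀ k : ℕ, r ^ k = (2 : ℝ) ^ (-(1 / 16 : ℝ) * k) := by
    intro k
    rw [hr, ← Real.rpow_natCast, ← Real.rpow_mul (by norm_num)]
  have hterm : ∀ m ∈ range (n + 1),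
      (2 : ℝ) ^ (-θ * ((n : ℝ) - m)) * max (V m) 0 ≤ V0 * r ^ (n - m) := by
    intro m hm
    have hmn : m ≤ n := by have := mem_range.1 hm; omega
    have hcast : ((n - m : ℕ) : ℝ) = (n : ℝ) - m := by push_cast [Nat.cast_sub hmn]; ring
    have hnm : (0 : ℝ) ≤ (n : ℝ) - m := by
      have : (m : ℝ) ≤ n := by exact_mod_cast hmn
      linarith
    rw [hpow, hcast]
    have hθ' : (31 / 32 : ℝ) ≤ θ := by linarith
    by_cases hthick : |V m| ≤ V0
    · have h1 : max (V m) 0 ≤ V0 := max_le ((le_abs_self _).trans hthick) (by linarith)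
      have h2 : (2 : ℝ) ^ (-θ * ((n : ℝ) - m)) ≤ (2 : ℝ) ^ (-(1 / 16 : ℝ) * ((n : ℝ) - m)) := by
        apply Real.rpow_le_rpow_of_exponent_le (by norm_num)
        nlinarith
      calc _ ≤ (2 : ℝ) ^ (-(1 / 16 : ℝ) * ((n : ℝ) - m)) * V0 := by
            apply mul_le_mul h2 h1 (le_max_right _ _) (by positivity)
        _ = _ := by ring
    · rcases le_or_gt (V m) 0 with hneg | hpos
      · rw [max_eq_right hneg, mul_zero]
        positivity
      · -- next thick index
        have hex : ∃ k, m < k ∧ |V k| ≤ V0 := by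
          refine ⟨n, ?_, hn⟩
          rcases Nat.lt_or_ge m n with h | h
          · exact h
          · exact absurd (by rw [show m = n by omega]; exact hn) hthick
        classical
        let b := Nat.find hex
        have hb : m < b ∧ |V b| ≤ V0 := Nat.find_spec hex
        have hbmin : ∀ k, m < k → k < b → ¬ |V k| ≤ V0 := fun k h1 h2 h3 =>
          Nat.find_min hex h2 ⟨h1, h3⟩
        have hmn' : m < n := by
          rcases Nat.lt_or_ge m n with h | h
          · exact h
          · exact absurd (by rw [show m = n by omega]; exact hn) hthick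
        have hbn : b ≤ n := Nat.find_min' hex ⟨hmn', hn⟩
        have hnt : ∀ k, m ≤ k → k < b → ¬ |V k| ≤ V0 := by
          intro k h1 h2
          rcases Nat.eq_or_lt_of_le h1 with h | h
          · rw [← h]; exact hthick
          · exact hbmin k h h2
        have hrun := le_run (fun k => |V k| ≤ V0) b m hb.1.le hnt
        have hsign : ∀ k, m ≤ k → k < b → 0 < V k := by
          intro k hk
          induction k, hk using Nat.le_induction with
          | base => intro _; exact hpos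
          | succ k hk ih =>
            intro h2
            exact H2 k (not_le.1 (hnt k hk (by omega))) (not_le.1 (hnt (k + 1) (by omega) h2))
              (ih (by omega))
        have hgb := hg b hbn hb.2 (by omega) (hsign (b - 1) (by omega) (by omega))
        have hlt : b - m < 8 * (n - b) := by omega
        have hgr := growth hV0 hκ H1 hb.2 (b - m) (by omega)
        rw [show b - (b - m) = m by omega] at hgr
        have hbm : ((b - m : ℕ) : ℝ) = (b : ℝ) - m := by
          push_cast [Nat.cast_sub hb.1.le]; ring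
        rw [hbm] at hgr
        have hmax : max (V m) 0 ≤ V0 * (2 : ℝ) ^ ((1 + κ) * ((b : ℝ) - m)) := by
          rw [max_eq_left hpos.le]
          exact (le_abs_self _).trans hgr
        have hlt' : (b : ℝ) - m ≤ 8 * ((n : ℝ) - b) := by
          have h1 : ((b - m : ℕ) : ℝ) ≤ ((8 * (n - b) : ℕ) : ℝ) := by exact_mod_cast hlt.le
          push_cast [Nat.cast_sub hb.1.le, Nat.cast_sub hbn] at h1
          linarith
        have hb0 : (0 : ℝ) ≤ (b : ℝ) - m := by
          have : (m : ℝ) ≤ b := by exact_mod_cast hb.1.le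
          linarith
        have hnb : (0 : ℝ) ≤ (n : ℝ) - b := by
          have : (b : ℝ) ≤ n := by exact_mod_cast hbn
          linarith
        calc (2 : ℝ) ^ (-θ * ((n : ℝ) - m)) * max (V m) 0
            ≤ (2 : ℝ) ^ (-θ * ((n : ℝ) - m)) * (V0 * (2 : ℝ) ^ ((1 + κ) * ((b : ℝ) - m))) := by
              gcongr
          _ = V0 * ((2 : ℝ) ^ (-θ * ((n : ℝ) - m)) * (2 : ℝ) ^ ((1 + κ) * ((b : ℝ) - m))) := by
              ring
          _ = V0 * (2 : ℝ) ^ (-θ * ((n : ℝ) - m) + (1 + κ) * ((b : ℝ) - m)) := by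
              rw [← Real.rpow_add (by norm_num)]
          _ ≤ V0 * (2 : ℝ) ^ (-(1 / 16 : ℝ) * ((n : ℝ) - m)) := by
              apply mul_le_mul_of_nonneg_left _ (by linarith)
              apply Real.rpow_le_rpow_of_exponent_le (by norm_num)
              have h1 : (1 + κ - θ) * ((b : ℝ) - m) ≤ 1 / 32 * ((b : ℝ) - m) :=
                mul_le_mul_of_nonneg_right hδ hb0
              have h2 : θ * ((n : ℝ) - b) ≥ 31 / 32 * ((n : ℝ) - b) :=
                mul_le_mul_of_nonneg_right hθ' hnb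
              nlinarith
  calc _ ≤ ∑ m ∈ range (n + 1), V0 * r ^ (n - m) := sum_le_sum hterm
    _ = V0 * ∑ m ∈ range (n + 1), r ^ (n - m) := by rw [mul_sum]
    _ = V0 * ∑ m ∈ range (n + 1), r ^ m := by
        congr 1
        have := Finset.sum_range_reflect (fun k => r ^ k) (n + 1)
        simpa using this
    _ ≤ V0 * (1 / (1 - r)) := by
        apply mul_le_mul_of_nonneg_left _ (by linarith)
        rw [le_div_iff₀ (by linarith), geom_sum_mul_neg]
        have : 0 < r ^ (n + 1) := by positivity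
        linarith
    _ = V0 / (1 - r) := by ring

/-- **Infinitely many good scales.**  `S⁺` or `S⁻` is bounded at infinitely many thick scales. -/
theorem good_scales (V : ℕ → ℝ) (V0 κ θ : ℝ) (hV0 : 1 ≤ V0) (hκ : 0 ≤ κ)
    (hδ : 1 + κ - θ ≤ 1 / 32)
    (H1 : ∀ n, |V n| ≤ (2 : ℝ) ^ (1 + κ) * max |V (n + 1)| V0)
    (H2 : ∀ n, V0 < |V n| → V0 < |V (n + 1)| → (0 < V n ↔ 0 < V (n + 1)))
    (H3 : ∃ᶠ n in atTop, |V n| ≤ V0) :
    ∃ᶠ n in atTop, |V n| ≤ V0 ∧
      (∑ m ∈ range (n + 1), (2 : ℝ) ^ (-θ * ((n : ℝ) - m)) * max (V m) 0 ≤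
          V0 / (1 - (2 : ℝ) ^ (-(1 / 16 : ℝ))) ∨
       ∑ m ∈ range (n + 1), (2 : ℝ) ^ (-θ * ((n : ℝ) - m)) * max (-V m) 0 ≤
          V0 / (1 - (2 : ℝ) ^ (-(1 / 16 : ℝ)))) := by
  set P : ℕ → Prop := fun k => |V k| ≤ V0 with hP
  set B : ℕ → Prop := fun n =>
    (∃ b, b ≤ n ∧ |V b| ≤ V0 ∧ 0 < run P b ∧ 0 < V (b - 1) ∧ 8 * (n - b) ≤ run P b) ∧
    (∃ b, b ≤ n ∧ |V b| ≤ V0 ∧ 0 < run P b ∧ V (b - 1) < 0 ∧ 8 * (n - b) ≤ run P b) with hB
  have hBb : ∀ n, P n → B n → ∃ b, b < n ∧ P b ∧ 8 * (n - b) ≤ run P b := by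
    rintro n hn ⟨⟨b, hb1, hb2, hb3, hb4, hb5⟩, ⟨c, hc1, hc2, hc3, hc4, hc5⟩⟩
    rcases Nat.lt_or_ge b n with h | h
    · exact ⟨b, h, hb2, hb5⟩
    · rcases Nat.lt_or_ge c n with h' | h'
      · exact ⟨c, h', hc2, hc5⟩
      · have e : b = c := by omega
        rw [e] at hb4
        exact absurd hb4 (not_lt.2 hc4.le)
  have hgood := exists_good P B hBb
  rw [frequently_atTop] at H3 ⊢
  intro a
  obtain ⟨n, hn, hnP⟩ := H3 (2 * a)
  obtain ⟨n', h1, h2, h3, h4⟩ := hgood n hnP
  have h5 := run_le P n'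
  refine ⟨n', by omega, h2, ?_⟩
  simp only [hB, not_and_or] at h3
  rcases h3 with h3 | h3
  · left
    apply sum_le hV0 hκ hδ H1 (fun n h h' h'' => (H2 n h h').1 h'') h2
    intro b hb1 hb2 hb3 hb4
    by_contra hc
    exact h3 ⟨b, hb1, hb2, hb3, hb4, not_lt.1 hc⟩
  · right
    have habs : ∀ k, |-V k| = |V k| := fun k => abs_neg _
    have key := sum_le (V := fun k => -V k) (V0 := V0) (κ := κ) (θ := θ) hV0 hκ hδ
      (fun n => by simpa only [habs] using H1 n)
      (fun n h h' h'' => by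
        rw [habs] at h h'
        have h6 : V n ≠ 0 := by
          intro h7; rw [h7] at h''; simp at h''
        have h7 : ¬ 0 < V n := by
          intro h8; linarith
        have h8 : ¬ 0 < V (n + 1) := fun h9 => h7 ((H2 n h h').2 h9)
        have h9 : V (n + 1) ≠ 0 := by
          intro h10; rw [h10, abs_zero] at h'; linarith
        have h10 : V (n + 1) < 0 := lt_of_le_of_ne (not_lt.1 h8) h9
        linarith)
      (n := n') (by rw [habs]; exact h2)
    apply key
    intro b hb1 hb2 hb3 hb4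
    simp only [habs] at hb2 hb3 hb4 ⊢
    by_contra hc
    exact h3 ⟨b, hb1, hb2, hb3, by linarith, not_lt.1 hc⟩

end Main

end Vale.Agent.P097.H434
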