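import Vale.Agent.P097.H202.Prim
import Mathlib.Analysis.Complex.AbsMax
import Mathlib.Analysis.Complex.ReImTopology
import Mathlib.Analysis.Calculus.Deriv.Star
import Mathlib.MeasureTheory.Integral.IntervalIntegral.FundThmCalculus
import Mathlib.MeasureTheory.Covering.DensityTheorem
import Mathlib.MeasureTheory.Measure.Lebesgue.Basic

/-!
# Transition windows which are transitional at all coarser scales

An extremum of the primitive of `Im θ` along a horizontal line is a zero of `Im θ` over which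
`Im θ` stays away from the extreme values `± H` on the whole vertical.
-/

set_option linter.all false

open Complex Metric Filter Topology Set MeasureTheory
open scoped ComplexConjugate

namespace Vale.Agent.P097.H434

/-- the point `(x, v)` -/
theorem re_xv (x v : ℝ) : ((x : ℂ) + v * I).re = x := by simp

theorem im_xv (x v : ℝ) : ((x : ℂ) + v * I).im = v := by simp

/-- derivative of the imaginary part of a primitive along a horizontal line -/
theorem hasDerivAt_im {F : ℂ → ℂ} {w : ℂ} {x v : ℝ} (h : HasDerivAt F w (x + v * I)) :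
    HasDerivAt (fun y : ℝ => (F (y + v * I)).im) w.im x := by
  have h1 : HasDerivAt (fun y : ℝ => (y : ℂ) + v * I) 1 x := by
    simpa using (Complex.ofRealCLM.hasDerivAt (x := x)).add_const ((v : ℂ) * I)
  have h2 : HasDerivAt (F ∘ (fun y : ℝ => (y : ℂ) + v * I)) (w * 1) x :=
    HasDerivAt.comp_of_eq x h h1 rfl
  have h3 := (Complex.imCLM.hasFDerivAt (x := F (x + v * I))).comp_hasDerivAt_of_eq x h2 rfl
  rw [mul_one] at h3
  exact h3

/-- the majorant on the quarter square -/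
noncomputable def mj (H δ : ℝ) (z : ℂ) : ℂ :=
  ((H / 2 : ℝ) : ℂ) * (I * z - ((2 / δ : ℝ) : ℂ) * z ^ 2 + ((1 / δ ^ 2 : ℝ) : ℂ) * (I * z ^ 3))

theorem mj_im (H δ x v : ℝ) : (mj H δ (x + v * I)).im =
    H / 2 * (x - 4 * x * v / δ + (x ^ 3 - 3 * x * v ^ 2) / δ ^ 2) := by
  have h1 : (x + v * I : ℂ) ^ 2 = ((x ^ 2 - v ^ 2 : ℝ) : ℂ) + ((2 * x * v : ℝ) : ℂ) * I := by
    push_cast
    linear_combination (v : ℂ) ^ 2 * I_sq
  have h2 : (x + v * I : ℂ) ^ 3 = ((x ^ 3 - 3 * x * v ^ 2 : ℝ) : ℂ) +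
      ((3 * x ^ 2 * v - v ^ 3 : ℝ) : ℂ) * I := by
    push_cast
    linear_combination (3 * (x : ℂ) * v ^ 2 + (v : ℂ) ^ 3 * I) * I_sq
  unfold mj
  rw [h1, h2, im_ofReal_mul]
  congr 1
  simp only [add_im, sub_im, mul_im, I_re, I_im, add_re, mul_re, ofReal_re, ofReal_im]
  ring

/-- the odd part (in the real direction) of `F` at the base point `p` -/
noncomputable def od (F : ℂ → ℂ) (p : ℂ) (z : ℂ) : ℂ := (F (p + z) + conj (F (p - conj z))) / 2

theorem od_im (F : ℂ → ℂ) (x₀ v₀ x v : ℝ) :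
    (od F (x₀ + v₀ * I) (x + v * I)).im =
      ((F (((x₀ + x : ℝ) : ℂ) + ((v₀ + v : ℝ) : ℂ) * I)).im
        - (F (((x₀ - x : ℝ) : ℂ) + ((v₀ + v : ℝ) : ℂ) * I)).im) / 2 := by
  have h1 : ((x₀ : ℂ) + v₀ * I) + (x + v * I) = ((x₀ + x : ℝ) : ℂ) + ((v₀ + v : ℝ) : ℂ) * I := by
    push_cast; ring
  have h2 : ((x₀ : ℂ) + v₀ * I) - conj ((x : ℂ) + v * I) =
      ((x₀ - x : ℝ) : ℂ) + ((v₀ + v : ℝ) : ℂ) * I := by
    simp only [map_add, map_mul, conj_ofReal, conj_I]
    push_cast; ring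
  unfold od
  rw [h1, h2]
  have h3 : ∀ w : ℂ, (w / 2).im = w.im / 2 := by
    intro w
    simp
  rw [h3, add_im, conj_im]
  ring

theorem od_diff {F θ : ℂ → ℂ} {U : Set ℂ} (hF : ∀ z ∈ U, HasDerivAt F (θ z) z) {p z : ℂ}
    (h1 : p + z ∈ U) (h2 : p - conj z ∈ U) : DifferentiableAt ℂ (od F p) z := by
  have a1 : DifferentiableAt ℂ (fun w : ℂ => F (p + w)) z :=
    ((hF _ h1).differentiableAt.comp z ((differentiableAt_const p).add differentiableAt_id))
  have a2 : DifferentiableAt ℂ (fun w : ℂ => F (p - w)) (conj z) :=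
    ((hF _ h2).differentiableAt.comp (conj z)
      ((differentiableAt_const p).sub differentiableAt_id))
  have a3 : DifferentiableAt ℂ (conj ∘ (fun w : ℂ => F (p - w)) ∘ conj) z := by
    have := (a2.hasDerivAt).conj_conj
    simp only [Complex.conj_conj] at this
    exact this.differentiableAt
  exact (a1.add a3).div_const 2

/-- **Lemma P.** A maximum of the primitive along a horizontal line. -/
theorem lemP {F θ : ℂ → ℂ} {U : Set ℂ} (hF : ∀ z ∈ U, HasDerivAt F (θ z) z)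
    {H δ x₀ v₀ : ℝ} (hδ : 0 < δ) (hH : ∀ z ∈ U, |(θ z).im| ≤ H)
    (hsq : ∀ x v : ℝ, |x - x₀| ≤ δ → v₀ - δ ≤ v → v ≤ v₀ → ((x : ℂ) + v * I) ∈ U)
    (hmax : ∀ x : ℝ, |x - x₀| ≤ δ → (F (x + v₀ * I)).im ≤ (F (x₀ + v₀ * I)).im) :
    (θ (x₀ + v₀ * I)).im = 0 ∧ ∀ s : ℝ, 0 ≤ s → s ≤ δ →
      |(θ (x₀ + ((v₀ - s : ℝ) : ℂ) * I)).im| ≤ H * (1 / 2 + 2 * s / δ) := by
  have hxx : |x₀ - x₀| ≤ δ := by simp [hδ.le]
  have hp0 : ((x₀ : ℂ) + v₀ * I) ∈ U := hsq x₀ v₀ hxx (by linarith) le_rfl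
  have hH0 : 0 ≤ H := (abs_nonneg _).trans (hH _ hp0)
  -- Lipschitz
  have lip : ∀ v : ℝ, v₀ - δ ≤ v → v ≤ v₀ → ∀ x x' : ℝ, |x - x₀| ≤ δ → |x' - x₀| ≤ δ →
      |(F (x + v * I)).im - (F (x' + v * I)).im| ≤ H * |x - x'| := by
    intro v hv1 hv2 x x' hx hx'
    have := (convex_Icc (x₀ - δ) (x₀ + δ)).norm_image_sub_le_of_norm_hasDerivWithin_le
      (f := fun y : ℝ => (F (y + v * I)).im) (f' := fun y : ℝ => (θ (y + v * I)).im) (C := H)
      (x := x') (y := x)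
      (fun y hy => (hasDerivAt_im (hF _ (hsq y v (abs_le.2 ⟨by linarith [hy.1],
        by linarith [hy.2]⟩) hv1 hv2))).hasDerivWithinAt)
      (fun y hy => by
        rw [Real.norm_eq_abs]
        exact hH _ (hsq y v (abs_le.2 ⟨by linarith [hy.1], by linarith [hy.2]⟩) hv1 hv2))
      ⟨by linarith [(abs_le.1 hx').1], by linarith [(abs_le.1 hx').2]⟩
      ⟨by linarith [(abs_le.1 hx).1], by linarith [(abs_le.1 hx).2]⟩
    simpa [Real.norm_eq_abs] using this
  constructor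
  · have hm : IsLocalMax (fun y : ℝ => (F (y + v₀ * I)).im) x₀ := by
      filter_upwards [Metric.closedBall_mem_nhds x₀ hδ] with y hy
      exact hmax y (by simpa [Real.dist_eq] using hy)
    exact hm.hasDerivAt_eq_zero (hasDerivAt_im (hF _ hp0))
  -- the comparison on the quarter square
  have key : ∀ σ : ℝ, (σ = 1 ∨ σ = -1) → ∀ x s : ℝ, 0 ≤ x → x ≤ δ → 0 ≤ s → s ≤ δ →
      σ * (((F (((x₀ + x : ℝ) : ℂ) + ((v₀ + -s : ℝ) : ℂ) * I)).im
        - (F (((x₀ - x : ℝ) : ℂ) + ((v₀ + -s : ℝ) : ℂ) * I)).im) / 2) ≤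
      H / 2 * (x - 4 * x * (-s) / δ + (x ^ 3 - 3 * x * (-s) ^ 2) / δ ^ 2) := by
    intro σ hσ x s hx0 hx1 hs0 hs1
    have hσ1 : |σ| = 1 := by rcases hσ with h | h <;> simp [h]
    set Q : Set ℂ := Ioo 0 δ ×ℂ Ioo (-δ) 0 with hQ
    set f : ℂ → ℂ := fun z => exp (-I * ((σ : ℂ) * od F (x₀ + v₀ * I) z - mj H δ z)) with hf
    have hnorm : ∀ x v : ℝ, ‖f (x + v * I)‖ =
        Real.exp (σ * (((F (((x₀ + x : ℝ) : ℂ) + ((v₀ + v : ℝ) : ℂ) * I)).im
        - (F (((x₀ - x : ℝ) : ℂ) + ((v₀ + v : ℝ) : ℂ) * I)).im) / 2) -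
          H / 2 * (x - 4 * x * v / δ + (x ^ 3 - 3 * x * v ^ 2) / δ ^ 2)) := by
      intro x v
      rw [hf]
      simp only
      rw [norm_exp]
      congr 1
      rw [← od_im, ← mj_im, neg_mul, neg_re, I_mul_re, neg_neg, sub_im, im_ofReal_mul]
    have hcl : closure Q = Icc 0 δ ×ℂ Icc (-δ) 0 := by
      rw [hQ, closure_reProdIm, closure_Ioo (by linarith), closure_Ioo (by linarith)]
    have hfr : frontier Q = Icc 0 δ ×ℂ {-δ, 0} ∪ {0, δ} ×ℂ Icc (-δ) 0 := by
      rw [hQ, frontier_reProdIm, closure_Ioo (by linarith), closure_Ioo (by linarith),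
        frontier_Ioo (by linarith), frontier_Ioo (by linarith)]
    have hin : ∀ x v : ℝ, x ∈ Icc 0 δ → v ∈ Icc (-δ) 0 →
        ((x₀ : ℂ) + v₀ * I) + (x + v * I) ∈ U ∧
          ((x₀ : ℂ) + v₀ * I) - conj ((x : ℂ) + v * I) ∈ U := by
      intro x v hx hv
      constructor
      · have h1 : ((x₀ : ℂ) + v₀ * I) + (x + v * I) =
            ((x₀ + x : ℝ) : ℂ) + ((v₀ + v : ℝ) : ℂ) * I := by push_cast; ring
        rw [h1]
        exact hsq _ _ (abs_le.2 ⟨by linarith [hx.1], by linarith [hx.2]⟩) (by linarith [hv.1])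
          (by linarith [hv.2])
      · have h2 : ((x₀ : ℂ) + v₀ * I) - conj ((x : ℂ) + v * I) =
            ((x₀ - x : ℝ) : ℂ) + ((v₀ + v : ℝ) : ℂ) * I := by
          simp only [map_add, map_mul, conj_ofReal, conj_I]
          push_cast; ring
        rw [h2]
        exact hsq _ _ (abs_le.2 ⟨by linarith [hx.2], by linarith [hx.1]⟩) (by linarith [hv.1])
          (by linarith [hv.2])
    have hdiff : ∀ z ∈ closure Q, DifferentiableAt ℂ f z := by
      intro z hz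
      rw [hcl] at hz
      have hz' : ((z.re : ℂ) + z.im * I) = z := Complex.re_add_im z
      have h1 := hin z.re z.im hz.1 hz.2
      rw [hz'] at h1
      have h2 : DifferentiableAt ℂ (mj H δ) z := by
        unfold mj
        fun_prop
      exact (((od_diff hF h1.1 h1.2).const_mul (σ : ℂ)).sub h2).const_mul (-I) |>.cexp
    have hdc : DiffContOnCl ℂ f Q := by
      refine ⟨fun z hz => (hdiff z (subset_closure hz)).differentiableWithinAt,
        fun z hz => (hdiff z hz).continuousAt.continuousWithinAt⟩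
    have hbd : Bornology.IsBounded Q := by
      rw [hQ]
      exact (Metric.isBounded_Ioo 0 δ).reProdIm (Metric.isBounded_Ioo (-δ) 0)
    have hb : ∀ z ∈ frontier Q, ‖f z‖ ≤ 1 := by
      intro z hz
      rw [hfr] at hz
      have hz' : ((z.re : ℂ) + z.im * I) = z := Complex.re_add_im z
      rw [← hz', hnorm z.re z.im, Real.exp_le_one_iff, sub_nonpos]
      -- the general bound
      have gen : z.re ∈ Icc 0 δ → z.im ∈ Icc (-δ) 0 →
          σ * (((F (((x₀ + z.re : ℝ) : ℂ) + ((v₀ + z.im : ℝ) : ℂ) * I)).im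
          - (F (((x₀ - z.re : ℝ) : ℂ) + ((v₀ + z.im : ℝ) : ℂ) * I)).im) / 2) ≤ H * z.re := by
        intro hx hv
        have h1 := lip (v₀ + z.im) (by linarith [hv.1]) (by linarith [hv.2]) (x₀ + z.re)
          (x₀ - z.re) (abs_le.2 ⟨by linarith [hx.1], by linarith [hx.2]⟩)
          (abs_le.2 ⟨by linarith [hx.2], by linarith [hx.1]⟩)
        have h2 : |x₀ + z.re - (x₀ - z.re)| = 2 * z.re := by
          rw [abs_of_nonneg (by linarith [hx.1])]; ring
        rw [h2] at h1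
        refine (le_abs_self _).trans ?_
        rw [abs_mul, hσ1, one_mul, abs_div, abs_two]
        linarith
      rcases hz with hz | hz
      · obtain ⟨hx, hv⟩ := hz
        have hx : z.re ∈ Icc 0 δ := hx
        have hv : z.im = -δ ∨ z.im = 0 := hv
        rcases hv with hv | hv
        · refine (gen hx ⟨by rw [hv], by rw [hv]; linarith⟩).trans ?_
          rw [hv]
          have e1 : z.re - 4 * z.re * -δ / δ + (z.re ^ 3 - 3 * z.re * (-δ) ^ 2) / δ ^ 2 =
              2 * z.re + z.re ^ 3 / δ ^ 2 := by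
            field_simp; ring
          rw [e1]
          have : 0 ≤ H * (z.re ^ 3 / δ ^ 2) := mul_nonneg hH0 (div_nonneg (pow_nonneg hx.1 3)
            (sq_nonneg δ))
          nlinarith [this]
        · rw [hv]
          simp only [add_zero]
          have a1 := hmax (x₀ + z.re) (abs_le.2 ⟨by linarith [hx.1], by linarith [hx.2]⟩)
          have a2 := hmax (x₀ - z.re) (abs_le.2 ⟨by linarith [hx.2], by linarith [hx.1]⟩)
          have b1 := lip v₀ (by linarith) le_rfl (x₀ + z.re) x₀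
            (abs_le.2 ⟨by linarith [hx.1], by linarith [hx.2]⟩) hxx
          have b2 := lip v₀ (by linarith) le_rfl (x₀ - z.re) x₀
            (abs_le.2 ⟨by linarith [hx.2], by linarith [hx.1]⟩) hxx
          have c1 : |x₀ + z.re - x₀| = z.re := by
            rw [abs_of_nonneg (by linarith [hx.1])]; ring
          have c2 : |x₀ - z.re - x₀| = z.re := by
            rw [abs_of_nonpos (by linarith [hx.1])]; ring
          rw [c1] at b1
          rw [c2] at b2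
          have b1' := (abs_le.1 b1).1
          have b2' := (abs_le.1 b2).1
          have c3 : 0 ≤ H / 2 * (z.re ^ 3 / δ ^ 2) := mul_nonneg (by linarith)
            (div_nonneg (pow_nonneg hx.1 3) (sq_nonneg δ))
          have e1 : H / 2 * (z.re - 4 * z.re * 0 / δ + (z.re ^ 3 - 3 * z.re * 0 ^ 2) / δ ^ 2) =
              H * z.re / 2 + H / 2 * (z.re ^ 3 / δ ^ 2) := by ring
          rw [e1]
          rcases hσ with h | h
          · rw [h]; linarith
          · rw [h]; linarith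
      · obtain ⟨hx, hv⟩ := hz
        have hx : z.re = 0 ∨ z.re = δ := hx
        have hv : z.im ∈ Icc (-δ) 0 := hv
        rcases hx with hx | hx
        · rw [hx]
          simp
        · refine (gen ⟨by rw [hx]; linarith, by rw [hx]⟩ hv).trans ?_
          rw [hx]
          have e1 : H / 2 * (δ - 4 * δ * z.im / δ + (δ ^ 3 - 3 * δ * z.im ^ 2) / δ ^ 2) =
              H * δ + H / 2 * ((-z.im) * (4 + 3 * z.im / δ)) := by
            field_simp; ring
          rw [e1]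
          have e2 : 0 ≤ 4 + 3 * z.im / δ := by
            have : -3 ≤ 3 * z.im / δ := by
              rw [le_div_iff₀ hδ]
              linarith [hv.1]
            linarith
          have e3 : 0 ≤ H / 2 * ((-z.im) * (4 + 3 * z.im / δ)) :=
            mul_nonneg (by linarith) (mul_nonneg (by linarith [hv.2]) e2)
          linarith
    have hmem : ((x : ℂ) + ((-s : ℝ) : ℂ) * I) ∈ closure Q := by
      rw [hcl, mem_reProdIm, re_xv, im_xv]
      exact ⟨⟨hx0, hx1⟩, ⟨by linarith, by linarith⟩⟩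
    have hfin := Complex.norm_le_of_forall_mem_frontier_norm_le hbd hdc hb hmem
    rw [hnorm x (-s), Real.exp_le_one_iff, sub_nonpos] at hfin
    exact hfin
  -- divide by x
  intro s hs0 hs1
  have hps : ((x₀ : ℂ) + ((v₀ + -s : ℝ) : ℂ) * I) ∈ U :=
    hsq x₀ (v₀ + -s) hxx (by linarith) (by linarith)
  have hd := hasDerivAt_im (hF _ hps)
  set h := (θ (x₀ + ((v₀ + -s : ℝ) : ℂ) * I)).im with hh
  have hvs : v₀ - s = v₀ + -s := by ring
  rw [hvs, ← hh]
  -- the odd difference quotient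
  have hd1 : HasDerivAt (fun x : ℝ => (F (((x₀ + x : ℝ) : ℂ) + ((v₀ + -s : ℝ) : ℂ) * I)).im)
      h 0 := by
    have := HasDerivAt.comp_of_eq (0 : ℝ) hd ((hasDerivAt_id (0 : ℝ)).const_add x₀)
      (by simp)
    simpa [Function.comp_def] using this
  have hd2 : HasDerivAt (fun x : ℝ => (F (((x₀ - x : ℝ) : ℂ) + ((v₀ + -s : ℝ) : ℂ) * I)).im)
      (-h) 0 := by
    have := HasDerivAt.comp_of_eq (0 : ℝ) hd ((hasDerivAt_id (0 : ℝ)).const_sub x₀)
      (by simp)
    simpa [Function.comp_def] using this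
  have hd3 := (hd1.sub hd2).div_const 2
  have hval : (h - -h) / 2 = h := by ring
  rw [hval] at hd3
  have hpoly : HasDerivAt (fun x : ℝ => H / 2 * (x - 4 * x * (-s) / δ +
      (x ^ 3 - 3 * x * (-s) ^ 2) / δ ^ 2)) (H / 2 * (1 + 4 * s / δ - 3 * s ^ 2 / δ ^ 2)) 0 := by
    have h0 := hasDerivAt_id (0 : ℝ)
    have := ((h0.sub (((h0.const_mul 4).mul_const (-s)).div_const δ)).add
      (((h0.pow 3).sub ((h0.const_mul 3).mul_const ((-s) ^ 2))).div_const (δ ^ 2))).const_mul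
        (H / 2)
    refine this.congr_deriv ?_
    show H / 2 * (1 - 4 * 1 * (-s) / δ + (((3 : ℕ) : ℝ) * (0 : ℝ) ^ (3 - 1) * 1
      - 3 * 1 * (-s) ^ 2) / δ ^ 2) = _
    rw [show ((0 : ℝ) ^ (3 - 1)) = 0 by norm_num]
    ring
  have hle : ∀ σ : ℝ, (σ = 1 ∨ σ = -1) →
      σ * h ≤ H / 2 * (1 + 4 * s / δ - 3 * s ^ 2 / δ ^ 2) := by
    intro σ hσ
    have t1 := (hd3.const_mul σ).tendsto_slope_zero_right
    have t2 := hpoly.tendsto_slope_zero_right
    refine le_of_tendsto_of_tendsto t1 t2 ?_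
    have hmem : Ioc (0 : ℝ) δ ∈ 𝓝[>] (0 : ℝ) := Ioc_mem_nhdsGT hδ
    filter_upwards [hmem] with x hx
    have := key σ hσ x s hx.1.le hx.2 hs0 hs1
    simp only [zero_add, smul_eq_mul]
    refine mul_le_mul_of_nonneg_left ?_ (inv_nonneg.2 hx.1.le)
    simp
    simp at this
    exact this
  have hfin : H / 2 * (1 + 4 * s / δ - 3 * s ^ 2 / δ ^ 2) ≤ H * (1 / 2 + 2 * s / δ) := by
    have : 0 ≤ H / 2 * (3 * s ^ 2 / δ ^ 2) := by positivity
    have e : H / 2 * (1 + 4 * s / δ - 3 * s ^ 2 / δ ^ 2) =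
      H * (1 / 2 + 2 * s / δ) - H / 2 * (3 * s ^ 2 / δ ^ 2) := by ring
    linarith
  rw [abs_le]
  constructor
  · have := hle (-1) (Or.inr rfl)
    linarith
  · have := hle 1 (Or.inl rfl)
    linarith

/-- increments of the primitive along a horizontal segment -/
theorem prim_inc {F θ : ℂ → ℂ} {U : Set ℂ} (hF : ∀ z ∈ U, HasDerivAt F (θ z) z)
    {H c d v : ℝ} (hcd : c ≤ d) (hH : ∀ z ∈ U, |(θ z).im| ≤ H)
    (hθ : ContinuousOn θ U) (hseg : ∀ x ∈ Icc c d, ((x : ℂ) + v * I) ∈ U) :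
    (∫ y in c..d, (θ (y + v * I)).im) = (F (d + v * I)).im - (F (c + v * I)).im ∧
      |(F (d + v * I)).im - (F (c + v * I)).im| ≤ H * (d - c) := by
  constructor
  · have h1 : ∀ x ∈ uIcc c d, HasDerivAt (fun y : ℝ => (F (y + v * I)).im)
        ((θ (x + v * I)).im) x := by
      intro x hx
      rw [uIcc_of_le hcd] at hx
      exact hasDerivAt_im (hF _ (hseg x hx))
    refine intervalIntegral.integral_eq_sub_of_hasDerivAt h1 (ContinuousOn.intervalIntegrable ?_)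
    rw [uIcc_of_le hcd]
    refine Complex.continuous_im.comp_continuousOn (hθ.comp ?_ hseg)
    exact ((Complex.continuous_ofReal).add continuous_const).continuousOn
  · have := (convex_Icc c d).norm_image_sub_le_of_norm_hasDerivWithin_le
      (f := fun y : ℝ => (F (y + v * I)).im) (f' := fun y : ℝ => (θ (y + v * I)).im) (C := H)
      (x := c) (y := d)
      (fun y hy => (hasDerivAt_im (hF _ (hseg y hy))).hasDerivWithinAt)
      (fun y hy => by
        rw [Real.norm_eq_abs]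
        exact hH _ (hseg y hy)) ⟨le_rfl, hcd⟩ ⟨hcd, le_rfl⟩
    rw [Real.norm_eq_abs, Real.norm_eq_abs, abs_of_nonneg (by linarith : (0 : ℝ) ≤ d - c)] at this
    exact this

/-- the window under the line `Im z = v₀` -/
def Wn (a b v₀ L : ℝ) : Set ℂ := Ioo a b ×ℂ Ioo (v₀ - L) v₀

theorem mem_Wn {a b v₀ L x v : ℝ} (h1 : a < x) (h2 : x < b) (h3 : v₀ - L < v) (h4 : v < v₀) :
    ((x : ℂ) + v * I) ∈ Wn a b v₀ L := by
  rw [Wn, mem_reProdIm, re_xv, im_xv]
  exact ⟨⟨h1, h2⟩, ⟨h3, h4⟩⟩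

theorem isOpen_Wn (a b v₀ L : ℝ) : IsOpen (Wn a b v₀ L) := isOpen_Ioo.reProdIm isOpen_Ioo

theorem convex_Wn (a b v₀ L : ℝ) : Convex ℝ (Wn a b v₀ L) := by
  have h1 : Wn a b v₀ L = Complex.reLm ⁻¹' (Ioo a b) ∩ Complex.imLm ⁻¹' (Ioo (v₀ - L) v₀) := by
    ext z
    rfl
  rw [h1]
  exact ((convex_Ioo a b).linear_preimage _).inter ((convex_Ioo _ _).linear_preimage _)

/-- transition from `+` to `-` -/
theorem asm {θ : ℂ → ℂ} {a b v₀ L H y₁ y₂ s₀ : ℝ} (hL : 0 < L) (hH0 : 0 < H)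
    (hθ : DifferentiableOn ℂ θ (Wn a b v₀ L)) (hH : ∀ z ∈ Wn a b v₀ L, |(θ z).im| ≤ H)
    (hs₀ : 0 < s₀) (ha : a < y₁) (h12 : y₁ + s₀ ≤ y₂) (hb : y₂ < b)
    (hev : ∀ᶠ η : ℝ in 𝓝[>] 0,
      H * s₀ / 2 ≤ (∫ y in y₁..(y₁ + s₀), (θ (y + ((v₀ - η : ℝ) : ℂ) * I)).im) ∧
      (∫ y in (y₂ - s₀)..y₂, (θ (y + ((v₀ - η : ℝ) : ℂ) * I)).im) ≤ -(H * s₀ / 2)) :
    ∃ δ > 0, ∀ᶠ η : ℝ in 𝓝[>] 0, ∃ y : ℝ, y₁ + δ ≤ y ∧ y ≤ y₂ - δ ∧
      (θ (y + ((v₀ - η : ℝ) : ℂ) * I)).im = 0 ∧ ∀ s : ℝ, 0 ≤ s → s ≤ δ →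
        |(θ (y + ((v₀ - η - s : ℝ) : ℂ) * I)).im| ≤ H * (1 / 2 + 2 * s / δ) := by
  obtain ⟨F, hF⟩ := Vale.Agent.P097.H202.prim_convex (isOpen_Wn a b v₀ L) (convex_Wn a b v₀ L) hθ
  have hδ : 0 < min (s₀ / 4) (L / 2) := lt_min (by linarith) (by linarith)
  refine ⟨min (s₀ / 4) (L / 2), hδ, ?_⟩
  have hsm : Ioo (0 : ℝ) (L / 2) ∈ 𝓝[>] (0 : ℝ) := Ioo_mem_nhdsGT (by linarith)
  filter_upwards [hev, hsm] with η hη hη2
  set v₁ := v₀ - η with hv₁
  have hv1 : v₁ < v₀ := by linarith [hη2.1]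
  have hv2 : v₀ - L < v₁ := by linarith [hη2.2]
  have hδ1 : min (s₀ / 4) (L / 2) ≤ s₀ / 4 := min_le_left _ _
  have hδ2 : min (s₀ / 4) (L / 2) ≤ L / 2 := min_le_right _ _
  have hcont : ContinuousOn θ (Wn a b v₀ L) := hθ.continuousOn
  have inc : ∀ c d : ℝ, y₁ ≤ c → c ≤ d → d ≤ y₂ →
      (∫ y in c..d, (θ (y + (v₁ : ℂ) * I)).im) = (F (d + v₁ * I)).im - (F (c + v₁ * I)).im ∧
      |(F (d + v₁ * I)).im - (F (c + v₁ * I)).im| ≤ H * (d - c) := by
    intro c d hc hcd hd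
    exact prim_inc hF hcd hH hcont fun x hx => mem_Wn (by linarith [hx.1]) (by linarith [hx.2])
      hv2 hv1
  -- the maximum
  have hcontF : ContinuousOn (fun y : ℝ => (F (y + v₁ * I)).im) (Icc y₁ y₂) := by
    intro y hy
    exact (hasDerivAt_im (hF _ (mem_Wn (by linarith [hy.1]) (by linarith [hy.2])
      hv2 hv1))).continuousAt.continuousWithinAt
  obtain ⟨y, hy, hymax⟩ := isCompact_Icc.exists_isMaxOn (nonempty_Icc.2 (by linarith)) hcontF
  have hym : ∀ x ∈ Icc y₁ y₂, (F (x + v₁ * I)).im ≤ (F (y + v₁ * I)).im := fun x hx => hymax hx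
  have g1 := (inc y₁ (y₁ + s₀) le_rfl (by linarith) h12).1
  have g2 := (inc (y₂ - s₀) y₂ (by linarith) (by linarith) le_rfl).1
  rw [g1, g2] at hη
  have hHs : 0 < H * s₀ := mul_pos hH0 hs₀
  have m1 := hym (y₁ + s₀) ⟨by linarith, h12⟩
  have m2 := hym (y₂ - s₀) ⟨by linarith, by linarith⟩
  have hyl : y₁ + s₀ / 4 ≤ y := by
    by_contra hlt
    have hlt : y < y₁ + s₀ / 4 := not_le.1 hlt
    have h := (abs_le.1 (inc y₁ y le_rfl hy.1 hy.2).2).2
    have h' : H * (y - y₁) ≤ H * (s₀ / 4) := mul_le_mul_of_nonneg_left (by linarith) hH0.le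
    linarith [hη.1]
  have hyr : y ≤ y₂ - s₀ / 4 := by
    by_contra hlt
    have hlt : y₂ - s₀ / 4 < y := not_le.1 hlt
    have h := (abs_le.1 (inc y y₂ hy.1 hy.2 le_rfl).2).1
    have h' : H * (y₂ - y) ≤ H * (s₀ / 4) := mul_le_mul_of_nonneg_left (by linarith) hH0.le
    linarith [hη.2]
  have key := lemP hF (x₀ := y) (v₀ := v₁) hδ hH
    (fun x v hx h1 h2 => mem_Wn (by linarith [(abs_le.1 hx).1]) (by linarith [(abs_le.1 hx).2])
      (by linarith [hη2.2]) (by linarith))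
    (fun x hx => hym x ⟨by linarith [(abs_le.1 hx).1], by linarith [(abs_le.1 hx).2]⟩)
  exact ⟨y, by linarith, by linarith, key.1, key.2⟩

/-- Fatou: many points with limit `H` force a large integral -/
theorem frac {θ : ℂ → ℂ} {a b v₀ L H c d : ℝ} (hL : 0 < L) (hH0 : 0 < H)
    (hθ : ContinuousOn θ (Wn a b v₀ L)) (hH : ∀ z ∈ Wn a b v₀ L, |(θ z).im| ≤ H)
    (ha : a < c) (hcd : c < d) (hb : d < b) {S : Set ℝ}
    (hS : ∀ y ∈ S, Tendsto (fun η : ℝ => (θ (y + ((v₀ - η : ℝ) : ℂ) * I)).im) (𝓝[>] 0) (𝓝 H))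
    (hvol : ENNReal.ofReal (3 / 4 * (d - c)) < volume (S ∩ Icc c d)) :
    ∀ᶠ η : ℝ in 𝓝[>] 0,
      H * (d - c) / 2 ≤ (∫ y in c..d, (θ (y + ((v₀ - η : ℝ) : ℂ) * I)).im) := by
  by_contra hno
  have hfr : ∃ᶠ η : ℝ in 𝓝[>] 0,
      (∫ y in c..d, (θ (y + ((v₀ - η : ℝ) : ℂ) * I)).im) < H * (d - c) / 2 ∧
        (0 < η ∧ η < L) := by
    have h1 : ∃ᶠ η : ℝ in 𝓝[>] 0,
        (∫ y in c..d, (θ (y + ((v₀ - η : ℝ) : ℂ) * I)).im) < H * (d - c) / 2 := by
      intro hcon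
      exact hno (hcon.mono fun η hη => not_lt.1 hη)
    exact h1.and_eventually (Ioo_mem_nhdsGT hL)
  obtain ⟨e, he, hep⟩ := Filter.exists_seq_forall_of_frequently hfr
  -- clamp
  set cl : ℝ → ℝ := fun y => max c (min d y) with hcl
  have hclc : Continuous cl := continuous_const.max (continuous_const.min continuous_id)
  have hclm : ∀ y, cl y ∈ Icc c d := fun y => ⟨le_max_left _ _, max_le hcd.le (min_le_left _ _)⟩
  have hclid : ∀ y ∈ Icc c d, cl y = y := by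
    intro y hy
    rw [hcl]
    simp only
    rw [min_eq_right hy.2, max_eq_right hy.1]
  set g : ℕ → ℝ → ℝ := fun n y => (θ (cl y + ((v₀ - e n : ℝ) : ℂ) * I)).im with hg
  have hWn : ∀ n y, ((cl y : ℝ) : ℂ) + ((v₀ - e n : ℝ) : ℂ) * I ∈ Wn a b v₀ L := by
    intro n y
    exact mem_Wn (by linarith [(hclm y).1]) (by linarith [(hclm y).2])
      (by linarith [(hep n).2.2]) (by linarith [(hep n).2.1])
  have hgc : ∀ n, Continuous (g n) := by
    intro n
    refine Complex.continuous_im.comp (hθ.comp_continuous ?_ (hWn n))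
    exact ((Complex.continuous_ofReal.comp hclc)).add continuous_const
  have hgb : ∀ n y, |g n y| ≤ H := fun n y => hH _ (hWn n y)
  have hgi : ∀ n, (∫ y in c..d, g n y) < H * (d - c) / 2 := by
    intro n
    have : (∫ y in c..d, g n y) = ∫ y in c..d, (θ (y + ((v₀ - e n : ℝ) : ℂ) * I)).im := by
      refine intervalIntegral.integral_congr fun y hy => ?_
      rw [uIcc_of_le hcd.le] at hy
      simp only [hg]
      rw [hclid y hy]
    rw [this]
    exact (hep n).1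
  set T : Set ℝ := Icc c d with hT
  set f : ℕ → ℝ → ENNReal := fun n y => ENNReal.ofReal (H + g n y) with hf
  have hfm : ∀ n, Measurable (f n) := fun n => (measurable_const.add (hgc n).measurable).ennreal_ofReal
  have hfat := lintegral_liminf_le (μ := volume.restrict T) (f := f) (u := atTop) hfm
  have hint : ∀ n, ∫⁻ y in T, f n y ≤ ENNReal.ofReal (3 / 2 * H * (d - c)) := by
    intro n
    have hi : Integrable (fun y => H + g n y) (volume.restrict T) :=
      ((continuous_const.add (hgc n)).continuousOn).integrableOn_Icc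
    rw [← ofReal_integral_eq_lintegral_ofReal hi
      (Eventually.of_forall fun y => by
        show (0 : ℝ) ≤ H + g n y
        linarith [(abs_le.1 (hgb n y)).1])]
    refine ENNReal.ofReal_le_ofReal ?_
    rw [hT, integral_Icc_eq_integral_Ioc, ← intervalIntegral.integral_of_le hcd.le,
      intervalIntegral.integral_add (by simp) ((hgc n).intervalIntegrable _ _),
      intervalIntegral.integral_const, smul_eq_mul]
    have := hgi n
    linarith
  have hlim : ∫⁻ y in T, liminf (fun n => f n y) atTop ≤ ENNReal.ofReal (3 / 2 * H * (d - c)) := by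
    refine hfat.trans ?_
    exact (liminf_le_liminf (Eventually.of_forall hint)).trans (by simp)
  have hmeas : Measurable (fun y => liminf (fun n => f n y) atTop) :=
    Measurable.liminf hfm
  have hmk := mul_meas_ge_le_lintegral (μ := volume.restrict T) hmeas (ENNReal.ofReal (2 * H))
  have hsub : S ∩ T ⊆ {y | ENNReal.ofReal (2 * H) ≤ liminf (fun n => f n y) atTop} ∩ T := by
    rintro y ⟨hyS, hyT⟩
    refine ⟨?_, hyT⟩
    have ht : Tendsto (fun n => f n y) atTop (𝓝 (ENNReal.ofReal (2 * H))) := by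
      have h1 := (hS y hyS).comp he
      have h2 : Tendsto (fun n => H + g n y) atTop (𝓝 (2 * H)) := by
        have : Tendsto (fun n => H + (θ (y + ((v₀ - e n : ℝ) : ℂ) * I)).im) atTop
            (𝓝 (H + H)) := tendsto_const_nhds.add h1
        rw [← two_mul] at this
        refine this.congr fun n => ?_
        simp only [hg]
        rw [hclid y hyT]
      exact (ENNReal.continuous_ofReal.tendsto _).comp h2
    exact ht.liminf_eq.ge
  have hTm : MeasurableSet T := measurableSet_Icc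
  have h5 : volume (S ∩ T) ≤ volume.restrict T
      {y | ENNReal.ofReal (2 * H) ≤ liminf (fun n => f n y) atTop} := by
    rw [Measure.restrict_apply' hTm]
    exact measure_mono hsub
  have h6 : ENNReal.ofReal (2 * H) * volume (S ∩ T) ≤ ENNReal.ofReal (3 / 2 * H * (d - c)) :=
    (mul_le_mul_right h5 _).trans (hmk.trans hlim)
  have h7 : ENNReal.ofReal (3 / 2 * H * (d - c)) =
      ENNReal.ofReal (2 * H) * ENNReal.ofReal (3 / 4 * (d - c)) := by
    rw [← ENNReal.ofReal_mul (by linarith)]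
    congr 1; ring
  rw [h7] at h6
  have h8 : ENNReal.ofReal (2 * H) ≠ 0 := by simpa using hH0
  have h9 := (ENNReal.mul_le_mul_iff_right h8 ENNReal.ofReal_ne_top).1 h6
  exact absurd hvol (not_lt.2 h9)

/-- two-sided density point of an arbitrary set of positive outer measure -/
theorem dens {a b : ℝ} {S : Set ℝ} (hSab : S ⊆ Ioo a b) (hS : volume S ≠ 0) :
    ∃ y ∈ Ioo a b, ∀ᶠ s : ℝ in 𝓝[>] 0,
      ENNReal.ofReal (3 / 4 * s) < volume (S ∩ Icc y (y + s)) ∧
      ENNReal.ofReal (3 / 4 * s) < volume (S ∩ Icc (y - s) y) := by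
  have h := IsUnifLocDoublingMeasure.ae_tendsto_measure_inter_div (volume : Measure ℝ) S 1
  have hm : ∀ᵐ y ∂(volume.restrict S), y ∈ Ioo a b :=
    ae_restrict_of_ae_restrict_of_subset hSab (ae_restrict_mem measurableSet_Ioo)
  have hne : (ae (volume.restrict S)).NeBot := by
    rw [ae_neBot]
    intro h0
    exact hS (Measure.restrict_eq_zero.1 h0)
  obtain ⟨y, hy, hyab⟩ := (h.and hm).exists
  refine ⟨y, hyab, ?_⟩
  have hlim : Tendsto (fun s : ℝ => s / 2) (𝓝[>] 0) (𝓝[>] 0) := by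
    refine tendsto_nhdsWithin_iff.2 ⟨?_, ?_⟩
    · have : Tendsto (fun s : ℝ => s / 2) (𝓝 0) (𝓝 (0 / 2)) :=
        (continuous_id.div_const 2).tendsto 0
      rw [zero_div] at this
      exact this.mono_left nhdsWithin_le_nhds
    · filter_upwards [self_mem_nhdsWithin] with s hs
      have hs : (0 : ℝ) < s := hs
      exact half_pos hs
  have gen : ∀ w : ℝ → ℝ, (∀ s, 0 < s → |y - w s| ≤ s / 2) →
      ∀ᶠ s : ℝ in 𝓝[>] 0,
        ENNReal.ofReal (3 / 4 * s) < volume (S ∩ closedBall (w s) (s / 2)) := by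
    intro w hw
    have h1 := hy w (fun s => s / 2) hlim (by
      filter_upwards [self_mem_nhdsWithin] with s hs
      rw [mem_closedBall, Real.dist_eq, one_mul]
      exact hw s hs)
    have h2 : ∀ᶠ s : ℝ in 𝓝[>] 0, ENNReal.ofReal (3 / 4) <
        volume (S ∩ closedBall (w s) (s / 2)) / volume (closedBall (w s) (s / 2)) := by
      refine h1.eventually (lt_mem_nhds ?_)
      rw [← ENNReal.ofReal_one]
      exact (ENNReal.ofReal_lt_ofReal_iff one_pos).2 (by norm_num)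
    filter_upwards [h2, self_mem_nhdsWithin] with s hs hs0
    have hs0 : (0 : ℝ) < s := hs0
    have hv : volume (closedBall (w s) (s / 2)) = ENNReal.ofReal s := by
      rw [Real.volume_closedBall]
      congr 1; ring
    rw [hv] at hs
    have h3 := (ENNReal.lt_div_iff_mul_lt (Or.inl (by simpa using hs0))
      (Or.inl ENNReal.ofReal_ne_top)).1 hs
    rwa [← ENNReal.ofReal_mul (by norm_num)] at h3
  have e1 : ∀ s : ℝ, Icc y (y + s) = closedBall (y + s / 2) (s / 2) := by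
    intro s
    rw [Real.closedBall_eq_Icc]
    congr 1 <;> ring
  have e2 : ∀ s : ℝ, Icc (y - s) y = closedBall (y - s / 2) (s / 2) := by
    intro s
    rw [Real.closedBall_eq_Icc]
    congr 1 <;> ring
  have g1 := gen (fun s => y + s / 2) fun s hs => by
    rw [abs_le]
    constructor <;> linarith
  have g2 := gen (fun s => y - s / 2) fun s hs => by
    rw [abs_le]
    constructor <;> linarith
  filter_upwards [g1, g2] with s h1 h2
  rw [e1, e2]
  exact ⟨h1, h2⟩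

/-- **Transition windows, transitional at all coarser scales.** -/
theorem exists_transition {θ : ℂ → ℂ} {a b v₀ L H : ℝ} (hL : 0 < L) (hH0 : 0 < H)
    (hθ : DifferentiableOn ℂ θ (Wn a b v₀ L)) (hH : ∀ z ∈ Wn a b v₀ L, |(θ z).im| ≤ H)
    {S T : Set ℝ} (hSab : S ⊆ Ioo a b) (hTab : T ⊆ Ioo a b)
    (hS0 : volume S ≠ 0) (hT0 : volume T ≠ 0)
    (hS : ∀ y ∈ S, Tendsto (fun η : ℝ => (θ (y + ((v₀ - η : ℝ) : ℂ) * I)).im) (𝓝[>] 0) (𝓝 H))
    (hT : ∀ y ∈ T, Tendsto (fun η : ℝ => (θ (y + ((v₀ - η : ℝ) : ℂ) * I)).im) (𝓝[>] 0)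
      (𝓝 (-H))) :
    ∃ δ > 0, ∀ᶠ η : ℝ in 𝓝[>] 0, ∃ y : ℝ, a + δ ≤ y ∧ y ≤ b - δ ∧
      (θ (y + ((v₀ - η : ℝ) : ℂ) * I)).im = 0 ∧ ∀ s : ℝ, 0 ≤ s → s ≤ δ →
        |(θ (y + ((v₀ - η - s : ℝ) : ℂ) * I)).im| ≤ H * (1 / 2 + 2 * s / δ) := by
  obtain ⟨y₁, hy₁, hd₁⟩ := dens hSab hS0
  obtain ⟨y₂, hy₂, hd₂⟩ := dens hTab hT0
  have hθn : DifferentiableOn ℂ (fun z => -θ z) (Wn a b v₀ L) := hθ.neg
  have hHn : ∀ z ∈ Wn a b v₀ L, |((fun z => -θ z) z).im| ≤ H := by
    intro z hz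
    simpa using hH z hz
  have hTn : ∀ y ∈ T, Tendsto (fun η : ℝ => ((fun z => -θ z) (y + ((v₀ - η : ℝ) : ℂ) * I)).im)
      (𝓝[>] 0) (𝓝 H) := by
    intro y hy
    have := (hT y hy).neg
    rw [neg_neg] at this
    exact this
  have hSn : ∀ y ∈ S, Tendsto (fun η : ℝ => ((fun z => -θ z) (y + ((v₀ - η : ℝ) : ℂ) * I)).im)
      (𝓝[>] 0) (𝓝 (-H)) := fun y hy => (hS y hy).neg
  -- the two integral statements
  have up : ∀ c d : ℝ, a < c → c < d → d < b →
      ENNReal.ofReal (3 / 4 * (d - c)) < volume (S ∩ Icc c d) →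
      ∀ᶠ η : ℝ in 𝓝[>] 0,
        H * (d - c) / 2 ≤ (∫ y in c..d, (θ (y + ((v₀ - η : ℝ) : ℂ) * I)).im) :=
    fun c d h1 h2 h3 h4 => frac hL hH0 hθ.continuousOn hH h1 h2 h3 hS h4
  have dn : ∀ c d : ℝ, a < c → c < d → d < b →
      ENNReal.ofReal (3 / 4 * (d - c)) < volume (T ∩ Icc c d) →
      ∀ᶠ η : ℝ in 𝓝[>] 0,
        (∫ y in c..d, (θ (y + ((v₀ - η : ℝ) : ℂ) * I)).im) ≤ -(H * (d - c) / 2) := by
    intro c d h1 h2 h3 h4
    have := frac hL hH0 hθn.continuousOn hHn h1 h2 h3 hTn h4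
    filter_upwards [this] with η hη
    have e : (∫ y in c..d, ((fun z => -θ z) (y + ((v₀ - η : ℝ) : ℂ) * I)).im) =
        -(∫ y in c..d, (θ (y + ((v₀ - η : ℝ) : ℂ) * I)).im) := by
      rw [← intervalIntegral.integral_neg]
      rfl
    rw [e] at hη
    linarith
  -- choose the common length
  have hsm : ∀ᶠ s : ℝ in 𝓝[>] 0, s < b - y₁ ∧ s < b - y₂ ∧ s < y₁ - a ∧ s < y₂ - a := by
    have h1 : ∀ r : ℝ, 0 < r → ∀ᶠ s : ℝ in 𝓝[>] 0, s < r := fun r hr =>
      (Iio_mem_nhds hr : Iio r ∈ 𝓝 (0 : ℝ)) |> mem_nhdsWithin_of_mem_nhds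
    exact (h1 _ (by linarith [hy₁.2])).and ((h1 _ (by linarith [hy₂.2])).and
      ((h1 _ (by linarith [hy₁.1])).and (h1 _ (by linarith [hy₂.1]))))
  have hpos : ∀ᶠ s : ℝ in 𝓝[>] 0, 0 < s := self_mem_nhdsWithin
  rcases lt_trichotomy y₁ y₂ with hlt | heq | hgt
  · have hs2 : ∀ᶠ s : ℝ in 𝓝[>] 0, s < y₂ - y₁ :=
      (Iio_mem_nhds (by linarith) : Iio (y₂ - y₁) ∈ 𝓝 (0 : ℝ)) |> mem_nhdsWithin_of_mem_nhds
    obtain ⟨s₀, ⟨⟨hA, hB⟩, ⟨hC, hD⟩⟩, hE⟩ := (((hd₁.and hd₂).and (hsm.and hs2)).and hpos).exists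
    have u := up y₁ (y₁ + s₀) hy₁.1 (by linarith) (by linarith [hC.1]) (by
      rw [add_sub_cancel_left]; exact hA.1)
    have w := dn (y₂ - s₀) y₂ (by linarith [hC.2.2.2]) (by linarith) hy₂.2 (by
      rw [sub_sub_cancel]; exact hB.2)
    rw [add_sub_cancel_left] at u
    rw [sub_sub_cancel] at w
    obtain ⟨δ, hδ, hev⟩ := asm hL hH0 hθ hH hE hy₁.1 (by linarith) hy₂.2 (u.and w)
    refine ⟨δ, hδ, hev.mono ?_⟩
    rintro η ⟨y, h1, h2, h3, h4⟩
    exact ⟨y, by linarith [hy₁.1], by linarith [hy₂.2], h3, h4⟩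
  · exfalso
    obtain ⟨s₀, ⟨⟨hA, hB⟩, hC⟩, hE⟩ := (((hd₁.and hd₂).and hsm).and hpos).exists
    have u := up y₁ (y₁ + s₀) hy₁.1 (by linarith) (by linarith [hC.1]) (by
      rw [add_sub_cancel_left]; exact hA.1)
    have w := dn y₁ (y₁ + s₀) hy₁.1 (by linarith) (by linarith [hC.1]) (by
      rw [add_sub_cancel_left]
      have := hB.1
      rw [← heq] at this
      exact this)
    obtain ⟨η, h1, h2⟩ := (u.and w).exists
    rw [add_sub_cancel_left] at h1 h2
    have : 0 < H * s₀ := mul_pos hH0 hE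
    linarith
  · have hs2 : ∀ᶠ s : ℝ in 𝓝[>] 0, s < y₁ - y₂ :=
      (Iio_mem_nhds (by linarith) : Iio (y₁ - y₂) ∈ 𝓝 (0 : ℝ)) |> mem_nhdsWithin_of_mem_nhds
    obtain ⟨s₀, ⟨⟨hA, hB⟩, ⟨hC, hD⟩⟩, hE⟩ := (((hd₁.and hd₂).and (hsm.and hs2)).and hpos).exists
    have u := dn y₂ (y₂ + s₀) hy₂.1 (by linarith) (by linarith [hC.2.1]) (by
      rw [add_sub_cancel_left]; exact hB.1)
    have w := up (y₁ - s₀) y₁ (by linarith [hC.2.2.1]) (by linarith) hy₁.2 (by
      rw [sub_sub_cancel]; exact hA.2)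
    rw [add_sub_cancel_left] at u
    rw [sub_sub_cancel] at w
    have hev' : ∀ᶠ η : ℝ in 𝓝[>] 0,
        H * s₀ / 2 ≤ (∫ y in y₂..(y₂ + s₀),
          ((fun z => -θ z) (y + ((v₀ - η : ℝ) : ℂ) * I)).im) ∧
        (∫ y in (y₁ - s₀)..y₁, ((fun z => -θ z) (y + ((v₀ - η : ℝ) : ℂ) * I)).im) ≤
          -(H * s₀ / 2) := by
      filter_upwards [u, w] with η h1 h2
      have e : ∀ c d : ℝ, (∫ y in c..d, ((fun z => -θ z) (y + ((v₀ - η : ℝ) : ℂ) * I)).im) =
          -(∫ y in c..d, (θ (y + ((v₀ - η : ℝ) : ℂ) * I)).im) := by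
        intro c d
        rw [← intervalIntegral.integral_neg]
        rfl
      rw [e, e]
      constructor <;> linarith
    obtain ⟨δ, hδ, hev⟩ := asm hL hH0 hθn hHn hE hy₂.1 (by linarith) hy₁.2 hev'
    refine ⟨δ, hδ, hev.mono ?_⟩
    rintro η ⟨y, h1, h2, h3, h4⟩
    refine ⟨y, by linarith [hy₂.1], by linarith [hy₁.2], ?_, fun s hs0 hs1 => ?_⟩
    · simpa using h3
    · have := h4 s hs0 hs1
      simpa using this

end Vale.Agent.P097.H434
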