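import Vale.Agent.P097.H264.Thick
import Vale.Agent.P097.H877.Bd.Fat3
import Vale.Agent.P097.H434.R2n

/-!
# P097 : boundary behaviour of the position in one slice

`slice_ae` : at almost every point of the edge of a slice at which the position has an interior
vertical limit (imaginary part), the position is far from the walls and from the R2 points on the
end of the vertical, and `sin (α - F θ)` does not tend to `0` on the vertical.
-/

set_option linter.all false

open Complex Metric Filter Topology Set MeasureTheory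
open scoped ComplexConjugate

namespace Vale.Agent.P097.H434

open Vale.Agent.P097.TC Vale.Agent.P097.H877.Bd Vale.Agent.P097.H264 Vale.Agent.P097.H699

/-- reflection of the upper half plane to the half plane below the height `R` -/
noncomputable def rf (R : ℝ) (ζ : ℂ) : ℂ := conj ζ + R * I

theorem rf_re (R : ℝ) (ζ : ℂ) : (rf R ζ).re = ζ.re := by simp [rf]

theorem rf_im (R : ℝ) (ζ : ℂ) : (rf R ζ).im = R - ζ.im := by simp [rf]; ring

theorem rf_ax (R x r : ℝ) : rf R ((x : ℂ) + r * I) = (x : ℂ) + ((R - r : ℝ) : ℂ) * I := by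
  apply Complex.ext
  · simp [rf]
  · simp [rf]; ring

theorem diff_rf {g : ℂ → ℂ} {R : ℝ} {ζ : ℂ} (h : DifferentiableAt ℂ g (rf R ζ)) :
    DifferentiableAt ℂ (fun ζ => conj (g (rf R ζ))) ζ := by
  have h1 : DifferentiableAt ℂ (fun z => g (z + R * I)) (conj ζ) := by
    have h2 : DifferentiableAt ℂ (fun z : ℂ => z + R * I) (conj ζ) := by fun_prop
    exact DifferentiableAt.comp (g := g) (conj ζ) h h2
  have h3 := h1.hasDerivAt.conj_conj
  rw [Complex.conj_conj] at h3
  exact h3.differentiableAt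

/-- the slab -/
def Sl (b R : ℝ) : Set ℂ := {t | b < t.im ∧ t.im < R}

theorem isOpen_Sl (b R : ℝ) : IsOpen (Sl b R) :=
  (isOpen_lt continuous_const Complex.continuous_im).inter
    (isOpen_lt Complex.continuous_im continuous_const)

theorem convex_Sl (b R : ℝ) : Convex ℝ (Sl b R) := by
  have h1 : Sl b R = Complex.imLm ⁻¹' (Ioo b R) := by
    ext z
    rfl
  rw [h1]
  exact (convex_Ioo _ _).linear_preimage _

theorem rf_mem {b R : ℝ} {ζ : ℂ} (h : ζ ∈ Sl 0 (R - b)) : rf R ζ ∈ Sl b R := by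
  refine ⟨?_, ?_⟩
  · rw [rf_im]; linarith [h.2]
  · rw [rf_im]; linarith [h.1]

theorem rf_rf (R : ℝ) (ζ : ℂ) : rf R (rf R ζ) = ζ := by
  apply Complex.ext <;> simp [rf]

theorem rf_mem' {b R : ℝ} {t : ℂ} (h : t ∈ Sl b R) : rf R t ∈ Sl 0 (R - b) := by
  refine ⟨?_, ?_⟩
  · rw [rf_im]; linarith [h.2]
  · rw [rf_im]; linarith [h.1]

/-- `sin d → 0` implies `1 - exp (2 i d) → 0` -/
theorem tendsto_exp_of_sin {l : Filter ℝ} {d : ℝ → ℂ} (h : Tendsto (fun r => Complex.sin (d r)) l (𝓝 0)) :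
    Tendsto (fun r => 1 - Complex.exp (2 * I * d r)) l (𝓝 0) := by
  have hid : ∀ z : ℂ, 1 - Complex.exp (2 * I * z) = Complex.sin z * (2 * Complex.sin z - 2 * I * Complex.cos z) := by
    intro z
    have h1 : Complex.exp (2 * I * z) = Complex.exp (z * I) ^ 2 := by
      rw [← Complex.exp_nat_mul]; congr 1; push_cast; ring
    rw [h1, Complex.exp_mul_I]
    have h2 := Complex.sin_sq_add_cos_sq z
    have h3 : (Complex.cos z + Complex.sin z * I) ^ 2 =
        Complex.cos z ^ 2 + 2 * I * Complex.sin z * Complex.cos z + Complex.sin z ^ 2 * I ^ 2 := by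
      ring
    rw [h3, I_sq]
    have h4 : Complex.cos z ^ 2 = 1 - Complex.sin z ^ 2 := by rw [← h2]; ring
    rw [h4]; ring
  have hcos : ∀ z : ℂ, ‖Complex.sin z‖ ≤ 1 → ‖Complex.cos z‖ ≤ 2 := by
    intro z hz
    have h2 := Complex.sin_sq_add_cos_sq z
    have h4 : Complex.cos z ^ 2 = 1 - Complex.sin z ^ 2 := by rw [← h2]; ring
    have h5 : ‖Complex.cos z‖ ^ 2 ≤ 1 + ‖Complex.sin z‖ ^ 2 := by
      rw [← norm_pow, h4]
      refine (norm_sub_le _ _).trans ?_
      rw [norm_one, norm_pow]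
    nlinarith [norm_nonneg (Complex.cos z), norm_nonneg (Complex.sin z)]
  have hbd : ∀ᶠ r in l, ‖1 - Complex.exp (2 * I * d r)‖ ≤ 6 * ‖Complex.sin (d r)‖ := by
    have h1 : ∀ᶠ r in l, ‖Complex.sin (d r)‖ < 1 := by
      have := h.norm
      rw [norm_zero] at this
      exact this.eventually (gt_mem_nhds one_pos)
    filter_upwards [h1] with r hr
    rw [hid, norm_mul, mul_comm 6]
    refine mul_le_mul_of_nonneg_left ?_ (norm_nonneg _)
    refine (norm_sub_le _ _).trans ?_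
    rw [norm_mul, norm_mul, norm_mul, Complex.norm_I]
    simp only [Complex.norm_ofNat, mul_one]
    have := hcos _ hr.le
    linarith
  refine squeeze_zero_norm' hbd ?_
  have := h.norm.const_mul 6
  simpa using this

theorem sin_of_exp {z : ℂ} (h : Complex.exp (2 * I * z) = 1) : Complex.sin z = 0 := by
  have h1 : Complex.exp (z * I) ^ 2 = 1 := by
    rw [← Complex.exp_nat_mul, ← h]; congr 1; push_cast; ring
  have h2 : Complex.exp (-z * I) = Complex.exp (z * I) := by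
    have h3 : Complex.exp (-z * I) * Complex.exp (z * I) = 1 := by
      rw [← Complex.exp_add]; simp
    have h4 : Complex.exp (z * I) ≠ 0 := Complex.exp_ne_zero _
    have h5 : Complex.exp (-z * I) * Complex.exp (z * I) = Complex.exp (z * I) * Complex.exp (z * I) := by
      rw [h3, ← sq, h1]
    exact mul_right_cancel₀ h4 h5
  rw [Complex.sin, h2]
  simp

/-- **one slice** -/
theorem slice_ae {b R H : ℝ} (hbR : b < R) (hH : 0 < H) {th dl Fp : ℂ → ℂ}
    (hth : DifferentiableOn ℂ th (Sl b R)) (hmem : ∀ t ∈ Sl b R, th t ∈ Sb H)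
    (hdl : DifferentiableOn ℂ dl (Sl b R))
    (hsin : ∀ t ∈ Sl b R, Complex.sin (dl t) = 0 → Fp (th t) = 0)
    (hFc : ContinuousOn Fp (Sb H)) (hper : ∀ x ∈ Sb H, ∀ n : ℤ, Fp (x + n) = Fp x)
    (hcount : {x | x ∈ Sb H ∧ Fp x = 0}.Countable)
    (hnc : ¬ ∃ w : ℂ, ∀ t ∈ Sl b R, Complex.exp (2 * Real.pi * I * th t) = w) :
    ∀ᵐ x : ℝ, ∀ L : ℝ, Tendsto (fun η : ℝ => (th ((x : ℂ) + ((R - η : ℝ) : ℂ) * I)).im) (𝓝[>] 0)
      (𝓝 L) → |L| < H →
      (∃ c₁ > 0, ∃ h > 0, h < R - b ∧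
        (∀ S : ℝ, 0 < S → S < h → |(th ((x : ℂ) + ((R - S : ℝ) : ℂ) * I)).im| ≤ (1 - c₁) * H) ∧
        ∀ S : ℝ, 0 < S → S < h → c₁ ≤ ‖Fp (th ((x : ℂ) + ((R - S : ℝ) : ℂ) * I))‖) ∧
      ¬ Tendsto (fun η : ℝ => Complex.sin (dl ((x : ℂ) + ((R - η : ℝ) : ℂ) * I))) (𝓝[>] 0)
        (𝓝 0) := by
  set D : Set ℂ := Sl 0 (R - b) with hD
  have hDo : IsOpen D := isOpen_Sl _ _
  have hDc : IsPreconnected D := (convex_Sl _ _).isPreconnected
  have hRb : 0 < R - b := by linarith
  have hcD : ∀ (k h x : ℝ), 0 < k → h ≤ R - b → cone k h x ⊆ D := fun k h x hk hh z hz =>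
    ⟨cone_im_pos hk hz, hz.2.trans_le hh⟩
  set Θ : ℂ → ℂ := fun ζ => conj (Complex.exp (2 * Real.pi * I * th (rf R ζ))) with hΘ
  have hthd : ∀ t ∈ Sl b R, DifferentiableAt ℂ th t := fun t ht =>
    hth.differentiableAt ((isOpen_Sl _ _).mem_nhds ht)
  have hΘd : DifferentiableOn ℂ Θ D := by
    intro ζ hζ
    refine (diff_rf (g := fun t => Complex.exp (2 * Real.pi * I * th t)) ?_).differentiableWithinAt
    exact ((hthd _ (rf_mem hζ)).const_mul _).cexp
  have hΘn : ∀ ζ, ‖Θ ζ‖ = Real.exp (-(2 * Real.pi * (th (rf R ζ)).im)) := by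
    intro ζ
    simp only [hΘ]
    rw [Complex.norm_conj, Complex.norm_exp]
    congr 1
    simp
  have hΘb : ∀ ζ ∈ D, ‖Θ ζ‖ ≤ Real.exp (2 * Real.pi * H) := by
    intro ζ hζ
    rw [hΘn]
    apply Real.exp_le_exp.mpr
    have h1 : |(th (rf R ζ)).im| < H := hmem _ (rf_mem hζ)
    have h2 := (abs_lt.1 h1).1
    nlinarith [Real.pi_pos]
  -- Fatou
  have hF : ∀ᵐ x : ℝ, ∃ L : ℂ, ∀ k' > 0, ∃ h' > 0, cone k' h' x ⊆ D ∧
      Tendsto Θ (𝓝[cone k' h' x] (x : ℂ)) (𝓝 L) := by
    have := fatloc hΘd (E := univ) (fun x _ => ⟨1, one_pos, R - b, hRb, Real.exp (2 * Real.pi * H),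
      hcD _ _ _ one_pos le_rfl, fun z hz => hΘb z (hcD _ _ _ one_pos le_rfl hz)⟩)
    filter_upwards [this] with x hx
    exact hx (mem_univ x)
  -- Privalov
  set Cw : Set ℂ := (fun x : ℂ => conj (Complex.exp (2 * Real.pi * I * x))) ''
    {x | x ∈ Sb H ∧ Fp x = 0} with hCw
  have hCc : Cw.Countable := hcount.image _
  have hP : ∀ᵐ x : ℝ, ∀ w ∈ Cw, ¬ ∃ k > 0, ∃ h > 0, cone k h x ⊆ D ∧
      Tendsto Θ (𝓝[cone k h x] (x : ℂ)) (𝓝 w) := by
    rw [ae_ball_iff hCc]
    intro w _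
    have h1 := privalov (f := fun ζ => Θ ζ - w) (hΘd.sub_const w)
      (E := {x | ∃ k > 0, ∃ h > 0, cone k h x ⊆ D ∧ Tendsto Θ (𝓝[cone k h x] (x : ℂ)) (𝓝 w)})
      (fun x hx => by
        obtain ⟨k, hk, h, hh, h2, h3⟩ := hx
        refine ⟨k, hk, h, hh, h2, ?_⟩
        have := h3.sub_const w
        rwa [sub_self] at this)
    filter_upwards [h1] with x hx hcon
    obtain ⟨k, hk, h, hh, h2, h3⟩ := hx hcon
    apply hnc
    have hpt : (x : ℂ) + ((h / 2 : ℝ) : ℂ) * I ∈ cone k h x := ax_mem hk (by linarith) (by linarith)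
    have han : AnalyticOnNhd ℂ (fun ζ => Θ ζ - w) D := (hΘd.sub_const w).analyticOnNhd hDo
    have h4 := han.eqOn_zero_of_preconnected_of_eventuallyEq_zero hDc (h2 hpt) (by
      filter_upwards [(isOpen_cone k h x).mem_nhds hpt] with z hz
      exact h3 z hz)
    refine ⟨conj w, fun t ht => ?_⟩
    have h5 : Θ (rf R t) - w = 0 := h4 (rf_mem' ht)
    have h6 : Θ (rf R t) = w := sub_eq_zero.mp h5
    simp only [hΘ, rf_rf] at h6
    rw [← h6, Complex.conj_conj]
  -- the tangency function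
  set D' : Set ℂ := {ζ | ζ ∈ D ∧ Fp (th (rf R ζ)) ≠ 0} with hD'
  set g : ℂ → ℂ := fun ζ => conj (1 - Complex.exp (2 * I * dl (rf R ζ))) with hg
  have hOm : Om D' g := by
    refine ⟨fun ζ hζ => ?_, fun ζ hζ => ⟨?_, ?_⟩⟩
    · refine (diff_rf (g := fun t => 1 - Complex.exp (2 * I * dl t)) ?_).differentiableWithinAt
      have h1 : DifferentiableAt ℂ dl (rf R ζ) :=
        hdl.differentiableAt ((isOpen_Sl _ _).mem_nhds (rf_mem hζ.1))
      exact ((h1.const_mul _).cexp).const_sub 1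
    · intro h0
      apply hζ.2
      apply hsin _ (rf_mem hζ.1)
      apply sin_of_exp
      simp only [hg, map_eq_zero] at h0
      exact (sub_eq_zero.mp h0).symm
    · intro h1
      simp only [hg] at h1
      have h2 : 1 - Complex.exp (2 * I * dl (rf R ζ)) = 1 := by
        have := congrArg conj h1
        rwa [Complex.conj_conj, map_one] at this
      exact Complex.exp_ne_zero _ (sub_eq_self.mp h2)
  have hN := no_zero hOm (S := {x : ℝ | ∃ k > 0, ∃ h > 0, cone k h x ⊆ D'}) (fun x hx => hx)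
  filter_upwards [hF, hP, hN] with x hx1 hx2 hx3 L hL hLH
  obtain ⟨W, hW⟩ := hx1
  obtain ⟨h', hh', hcs, hlim⟩ := hW 1 one_pos
  -- the vertical
  have hax : Tendsto (fun r : ℝ => ((x : ℂ) + (r : ℂ) * I)) (𝓝[>] 0) (𝓝[cone 1 h' x] (x : ℂ)) := by
    refine tendsto_nhdsWithin_iff.mpr ⟨?_, ?_⟩
    · have h1 : Continuous fun r : ℝ => ((x : ℂ) + (r : ℂ) * I) := by fun_prop
      have h2 := h1.tendsto 0
      simp only [ofReal_zero, zero_mul, add_zero] at h2
      exact h2.mono_left nhdsWithin_le_nhds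
    · filter_upwards [Ioo_mem_nhdsGT hh'] with r hr
      exact ax_mem one_pos hr.1 hr.2
  have hWn : ‖W‖ = Real.exp (-(2 * Real.pi * L)) := by
    have h1 : Tendsto (fun r : ℝ => ‖Θ ((x : ℂ) + (r : ℂ) * I)‖) (𝓝[>] 0) (𝓝 ‖W‖) :=
      (hlim.comp hax).norm
    have h2 : Tendsto (fun r : ℝ => ‖Θ ((x : ℂ) + (r : ℂ) * I)‖) (𝓝[>] 0)
        (𝓝 (Real.exp (-(2 * Real.pi * L)))) := by
      have h3 : Tendsto (fun r : ℝ => Real.exp (-(2 * Real.pi *
          (th ((x : ℂ) + ((R - r : ℝ) : ℂ) * I)).im))) (𝓝[>] 0)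
          (𝓝 (Real.exp (-(2 * Real.pi * L)))) :=
        (Real.continuous_exp.tendsto _).comp ((hL.const_mul _).neg)
      refine h3.congr fun r => ?_
      rw [hΘn, rf_ax]
    exact tendsto_nhds_unique h1 h2
  have hW0 : W ≠ 0 := by
    rw [← norm_pos_iff, hWn]; exact Real.exp_pos _
  set xs : ℂ := ((Complex.arg (conj W) / (2 * Real.pi) : ℝ) : ℂ) + L * I with hxs
  have hexs : Complex.exp (2 * Real.pi * I * xs) = conj W := by
    have h1 : (2 * Real.pi * I * xs : ℂ) = ((-(2 * Real.pi * L) : ℝ) : ℂ) +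
        (Complex.arg (conj W) : ℂ) * I := by
      have hpi : (Real.pi : ℂ) ≠ 0 := by exact_mod_cast Real.pi_ne_zero
      rw [hxs]
      push_cast
      field_simp
      ring_nf
      rw [I_sq]
      ring
    rw [h1, Complex.exp_add, ← Complex.ofReal_exp, ← hWn, ← Complex.norm_conj W]
    exact Complex.norm_mul_exp_arg_mul_I _
  have hxsm : xs ∈ Sb H := by
    have h1 : xs.im = L := by
      rw [hxs, Complex.add_im, Complex.ofReal_im, Complex.mul_im]
      simp
    show |xs.im| < H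
    rwa [h1]
  have hFxs : Fp xs ≠ 0 := by
    intro h0
    refine hx2 W ⟨xs, ⟨hxsm, h0⟩, ?_⟩ ⟨1, one_pos, h', hh', hcs, hlim⟩
    simp only [hexs, Complex.conj_conj]
  have hFn : 0 < ‖Fp xs‖ := norm_pos_iff.mpr hFxs
  have hSbo : IsOpen (Sb H) := isOpen_lt (by fun_prop) (by fun_prop)
  -- the position near the vertex of the cone
  have hnear : ∀ᶠ ζ in 𝓝[cone 1 h' x] (x : ℂ), ‖Fp xs‖ / 2 ≤ ‖Fp (th (rf R ζ))‖ := by
    have h1 : ∀ᶠ y in 𝓝 xs, y ∈ Sb H ∧ ‖Fp xs‖ / 2 < ‖Fp y‖ := by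
      have h2 : ContinuousAt Fp xs := hFc.continuousAt (hSbo.mem_nhds hxsm)
      have h3 := h2.norm.eventually (lt_mem_nhds (show ‖Fp xs‖ / 2 < ‖Fp xs‖ by linarith))
      exact (hSbo.mem_nhds hxsm |> fun h => (h : ∀ᶠ y in 𝓝 xs, y ∈ Sb H)).and h3
    set ψ : ℂ → ℂ := fun v => xs + Complex.log (v / conj W) / (2 * Real.pi * I) with hψ
    have hcW : conj W ≠ 0 := by simpa using hW0
    have h4 : Tendsto (fun ζ => ψ (Complex.exp (2 * Real.pi * I * th (rf R ζ))))
        (𝓝[cone 1 h' x] (x : ℂ)) (𝓝 xs) := by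
      have h5 : Tendsto (fun ζ => Complex.exp (2 * Real.pi * I * th (rf R ζ)))
          (𝓝[cone 1 h' x] (x : ℂ)) (𝓝 (conj W)) := by
        have h6 := (Complex.continuous_conj.tendsto W).comp hlim
        refine h6.congr fun ζ => ?_
        simp only [hΘ, Function.comp_apply, Complex.conj_conj]
      have h7 : ContinuousAt ψ (conj W) := by
        have h8 : ContinuousAt (fun v : ℂ => v / conj W) (conj W) := by fun_prop
        have h9 : ContinuousAt Complex.log (conj W / conj W) := by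
          rw [div_self hcW]
          exact continuousAt_clog (by simp [Complex.slitPlane])
        have h10 : ContinuousAt (fun v : ℂ => Complex.log (v / conj W)) (conj W) :=
          ContinuousAt.comp (f := fun v : ℂ => v / conj W) h9 h8
        exact (h10.div_const _).const_add xs |> fun h => by simpa [hψ] using h
      have h11 : ψ (conj W) = xs := by
        simp [hψ, div_self hcW]
      have h12 := h7.tendsto.comp h5
      rw [h11] at h12
      exact h12
    filter_upwards [h4.eventually h1, self_mem_nhdsWithin] with ζ hζ1 hζ2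
    set v : ℂ := Complex.exp (2 * Real.pi * I * th (rf R ζ)) with hv
    have hv0 : v / conj W ≠ 0 := div_ne_zero (Complex.exp_ne_zero _) hcW
    have h2pi : (2 * Real.pi * I : ℂ) ≠ 0 := Complex.two_pi_I_ne_zero
    have h13 : Complex.exp (2 * Real.pi * I * ψ v) = Complex.exp (2 * Real.pi * I * th (rf R ζ)) := by
      have h14 : 2 * Real.pi * I * ψ v = 2 * Real.pi * I * xs + Complex.log (v / conj W) := by
        simp only [hψ]
        field_simp
      rw [h14, Complex.exp_add, hexs, Complex.exp_log hv0, mul_div_cancel₀ _ hcW]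
    obtain ⟨n, hn⟩ := Complex.exp_eq_exp_iff_exists_int.mp h13
    have h15 : ψ v = th (rf R ζ) + n := by
      have h16 : 2 * Real.pi * I * ψ v = 2 * Real.pi * I * (th (rf R ζ) + n) := by
        rw [hn]; ring
      exact mul_left_cancel₀ h2pi h16
    have h17 := hζ1.2
    rw [h15, hper _ (hmem _ (rf_mem (hcs hζ2))) n] at h17
    exact h17.le
  rw [eventually_nhdsWithin_iff, Metric.eventually_nhds_iff] at hnear
  obtain ⟨ε, hε, hnear⟩ := hnear
  set h₂ : ℝ := min h' (ε / 2) with hh₂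
  have hh₂0 : 0 < h₂ := lt_min hh' (by positivity)
  have hcone2 : ∀ ζ ∈ cone 1 h₂ x, ‖Fp xs‖ / 2 ≤ ‖Fp (th (rf R ζ))‖ := by
    intro ζ hζ
    refine hnear ?_ (cone_mono one_pos le_rfl (min_le_left _ _) hζ)
    rw [dist_eq_norm]
    have h1 := Complex.norm_le_abs_re_add_abs_im (ζ - x)
    simp only [sub_re, ofReal_re, sub_im, ofReal_im, sub_zero] at h1
    have h2 : |ζ.re - x| < 1 * ζ.im := hζ.1
    have h3 : ζ.im < h₂ := hζ.2
    have h4 : h₂ ≤ ε / 2 := min_le_right _ _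
    have h5 : 0 < ζ.im := cone_im_pos one_pos hζ
    rw [abs_of_pos h5] at h1
    linarith
  have hnt := hx3 ⟨1, one_pos, h₂, hh₂0, fun ζ hζ =>
    ⟨hcs (cone_mono one_pos le_rfl (min_le_left _ _) hζ), by
      rw [← norm_pos_iff]
      have := hcone2 ζ hζ
      linarith⟩⟩
  constructor
  · -- the constants
    have hmid : ∀ᶠ η : ℝ in 𝓝[>] 0, |(th ((x : ℂ) + ((R - η : ℝ) : ℂ) * I)).im| < (|L| + H) / 2 :=
      hL.abs.eventually (gt_mem_nhds (by linarith))
    obtain ⟨h₃, hh₃, hmid⟩ := mem_nhdsGT_iff_exists_Ioo_subset.mp hmid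
    have hh₃0 : (0 : ℝ) < h₃ := hh₃
    set c₁ : ℝ := min ((H - |L|) / (2 * H)) (‖Fp xs‖ / 2) with hc₁
    have hc₁0 : 0 < c₁ := lt_min (div_pos (by linarith) (by positivity)) (by positivity)
    refine ⟨c₁, hc₁0, min (min h₂ h₃) ((R - b) / 2), by positivity, ?_, ?_, ?_⟩
    · have := min_le_right (min h₂ h₃) ((R - b) / 2)
      linarith
    · intro S hS0 hS
      have h1 : S < h₃ := hS.trans_le ((min_le_left _ _).trans (min_le_right _ _))
      have h2 : |(th ((x : ℂ) + ((R - S : ℝ) : ℂ) * I)).im| < (|L| + H) / 2 := hmid ⟨hS0, h1⟩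
      have h3 : c₁ * H ≤ (H - |L|) / 2 := by
        have h4 : c₁ ≤ (H - |L|) / (2 * H) := min_le_left _ _
        rw [le_div_iff₀ (by positivity)] at h4
        linarith
      nlinarith
    · intro S hS0 hS
      have h1 : S < h₂ := hS.trans_le ((min_le_left _ _).trans (min_le_left _ _))
      have h2 := hcone2 _ (ax_mem one_pos hS0 h1 (x := x))
      rw [rf_ax] at h2
      exact (min_le_right _ _).trans h2
  · intro hs
    apply hnt
    have h1 := tendsto_exp_of_sin (d := fun η : ℝ => dl ((x : ℂ) + ((R - η : ℝ) : ℂ) * I)) hs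
    have h2 := (Complex.continuous_conj.tendsto 0).comp h1
    rw [map_zero] at h2
    refine h2.congr fun r => ?_
    simp only [hg, Function.comp_apply, rf_ax]

end Vale.Agent.P097.H434
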