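import Vale.Agent.P097.H434.Slice
import Vale.Agent.P097.H920.Inst
import Vale.Agent.P097.TC.Defs5

/-!
# P097 / (A4): vertical limits are walls almost everywhere

`walls_of` : from `PW`, `PAI` and the world at almost every point with the CONSTANT sequence.
-/

set_option linter.all false

open Complex Metric Filter Topology Set MeasureTheory
open scoped ComplexConjugate

namespace Vale.Agent.P097.H434

open Vale.Agent.P097.TC Vale.Agent.P097.A5 Vale.Agent.P097.H85 Vale.Agent.P097.H929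

/-- `deriv F` has period `1` -/
theorem dF_per {H : ℝ} {F : ℂ → ℂ} (hp : ∀ x ∈ Sb H, F (x + 1) = F x + 2 * Real.pi) {x : ℂ}
    (hx : x ∈ Sb H) (n : ℤ) : deriv F (x + n) = deriv F x := by
  have hSbo : IsOpen (Sb H) := isOpen_lt (by fun_prop) (by fun_prop)
  have hone : ∀ y ∈ Sb H, deriv F (y + 1) = deriv F y := by
    intro y hy
    have h1 : (fun z => F (z + 1)) =ᶠ[𝓝 y] fun z => F z + 2 * Real.pi := by
      filter_upwards [hSbo.mem_nhds hy] with z hz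
      exact hp z hz
    have h2 := h1.deriv_eq
    rw [deriv_comp_add_const, deriv_add_const] at h2
    exact h2
  have hmem : ∀ (m : ℤ), x + m ∈ Sb H := by
    intro m
    show |(x + m).im| < H
    have : (x + m).im = x.im := by simp
    rw [this]; exact hx
  induction n using Int.induction_on with
  | zero => simp
  | succ n ih =>
    have h1 := hone _ (hmem n)
    rw [← ih, ← h1]
    congr 1
    push_cast
    ring
  | pred n ih =>
    have h1 := hone _ (hmem (-(n : ℤ) - 1))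
    rw [← ih, ← h1]
    congr 1
    push_cast
    ring

/-- **walls almost everywhere** (row N1 / N-A) -/
theorem walls_of (hW : PW) (hA : PAI) {Λ H : ℝ} {F q : ℂ → ℂ} {b m : ℝ} {Ψ : ℂ → ℂ}
    {Mj Mk B : Set (ℂ × ℂ)} {A : Set ℝ} {P : ℝ → ℂ} {c k : ℝ → ℝ} {K s : ℝ}
    {al p th : ℂ × ℂ → ℂ} {J : ℂ → ℂ} {y₁ y₂ : ℝ} (hy : y₁ < y₂)
    (hI : ∀ᵐ e : ℝ × ℝ, e.1 ∈ Ioo y₁ y₂ → e.2 ∈ A → ∃ σ : ℝ,
      W5 Λ H F q b m Ψ Mj Mk B A P c k K e.1 e.2 σ s al p th J ∧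
        Tou H P c e.2 σ th (fun _ => e.1) (fun _ => e.2))
    (hnc : ∀ u ∈ A, ¬ ∃ w : ℂ, ∀ t : ℂ, b < t.im → t.im < (P u).im →
      Complex.exp (2 * Real.pi * I * th (t, (u : ℂ))) = w) :
    ∀ᵐ u : ℝ, u ∈ A → ∀ᵐ x : ℝ, x ∈ Ioo y₁ y₂ → ∀ L : ℝ,
      Tendsto (fun η : ℝ => (th (vp P x u η)).im) (𝓝[>] 0) (𝓝 L) → ¬ |L| < H := by
  obtain ⟨Nl, hNl, htan⟩ := tan_of hW hA (Λ := Λ) (H := H) (F := F) (q := q) (b := b) (m := m)
    (Ψ := Ψ) (Mj := Mj) (Mk := Mk) (B := B) (A := A) (P := P) (c := c) (k := k) (K := K) (s := s)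
    (al := al) (p := p) (th := th) (J := J)
  have hI2 : ∀ᵐ u : ℝ, ∀ᵐ x : ℝ, x ∈ Ioo y₁ y₂ → u ∈ A → ∃ σ : ℝ,
      W5 Λ H F q b m Ψ Mj Mk B A P c k K x u σ s al p th J ∧
        Tou H P c u σ th (fun _ => x) (fun _ => u) := by
    have h1 : ∀ᵐ e : ℝ × ℝ, e.2 ∈ Ioo y₁ y₂ → e.1 ∈ A → ∃ σ : ℝ,
        W5 Λ H F q b m Ψ Mj Mk B A P c k K e.2 e.1 σ s al p th J ∧
          Tou H P c e.1 σ th (fun _ => e.2) (fun _ => e.1) :=
      (Measure.measurePreserving_swap (μ := (volume : Measure ℝ))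
        (ν := (volume : Measure ℝ))).quasiMeasurePreserving.ae hI
    exact Measure.ae_ae_of_ae_prod h1
  have hNl2 : ∀ᵐ u : ℝ, u ∉ Nl := by
    rw [ae_iff]
    simpa using hNl
  filter_upwards [hI2, hNl2] with u hu1 hu2 huA
  -- one instance of the world
  obtain ⟨x₀, hx₀, σ₀, W, -⟩ : ∃ x₀ ∈ Ioo y₁ y₂, ∃ σ : ℝ,
      W5 Λ H F q b m Ψ Mj Mk B A P c k K x₀ u σ s al p th J ∧
        Tou H P c u σ th (fun _ => x₀) (fun _ => u) := by
    by_contra hcon
    push Not at hcon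
    have h1 : volume (Ioo y₁ y₂) = 0 := by
      rw [ae_iff] at hu1
      refine measure_mono_null (fun x hx => ?_) hu1
      simp only [Set.mem_ofPred_eq, Classical.not_imp]
      refine ⟨hx, huA, ?_⟩
      rintro ⟨σ, h2, h3⟩
      exact hcon x hx σ h2 h3
    rw [Real.volume_Ioo, ENNReal.ofReal_eq_zero] at h1
    linarith
  set R : ℝ := (P u).im with hR
  have hbR : b < R := W.hb u huA
  have hSB : ∀ t ∈ Sl b R, (t, (u : ℂ)) ∈ B := by
    intro t ht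
    obtain ⟨δ, hδ, h1⟩ := W.coneU 1 one_pos
    have h2 := h1 u huA 0 (by simpa using hδ) t ht.1 (by simpa using ht.2)
    simpa using h2
  have hu0 : (u : ℂ) ≠ 0 := by exact_mod_cast W.uz u huA
  have hSjk : ∀ t ∈ Sl b R, (t, (u : ℂ)) ∈ Dm Mj Mk := fun t ht =>
    ⟨⟨W.Bj (hSB t ht), W.Bk (hSB t ht)⟩, hu0⟩
  have hH : 0 < H := W.crv.cv.b0
  have hthd : DifferentiableOn ℂ (fun t => th (t, (u : ℂ))) (Sl b R) :=
    W.dth.comp (by fun_prop) hSjk
  have hald : DifferentiableOn ℂ (fun t => al (t, (u : ℂ))) (Sl b R) :=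
    W.dal.comp (by fun_prop) (fun t ht => W.Bk (hSB t ht))
  have hSbo : IsOpen (Sb H) := isOpen_lt (by fun_prop) (by fun_prop)
  have hFth : DifferentiableOn ℂ (fun t => F (th (t, (u : ℂ)))) (Sl b R) :=
    W.crv.cv.dF.comp hthd (fun t ht => W.mem _ (hSjk t ht))
  have hsl := slice_ae hbR hH (th := fun t => th (t, (u : ℂ)))
    (dl := fun t => del F al th (t, (u : ℂ))) (Fp := deriv F) hthd
    (fun t ht => W.mem _ (hSjk t ht)) (hald.sub hFth)
    (fun t ht h0 => by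
      by_contra hne
      have h1 := W.smp _ (hSjk t ht)
      have h2 := (H920.Mi_simple_iff W.crv.cv (W.mem _ (hSjk t ht)) (W.inc _ (hSjk t ht)) hne).mp h1
      exact h2 h0)
    ((W.crv.cv.dF.analyticOnNhd hSbo).deriv.continuousOn)
    (fun x hx n => dF_per W.crv.Fp hx n) (countable_R2 W.crv.cv)
    (by
      rintro ⟨w, hw⟩
      exact hnc u huA ⟨w, fun t h1 h2 => hw t ⟨h1, h2⟩⟩)
  filter_upwards [hsl, hu1] with x hx1 hx2 hx L hL hLH
  obtain ⟨σ, W', T'⟩ := hx2 hx huA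
  obtain ⟨⟨c₁, hc₁, h, hh, hhb, hmid, hnr⟩, hns⟩ := hx1 L hL hLH
  apply hns
  refine htan W' T' hu2 (C := 1) (c₁ := c₁) (h := h) one_pos hc₁ ⟨hh, ?_, ?_, ?_⟩
  · show b < (P u).im - 1 * h
    linarith
  · intro S hS0 hS
    exact hmid S hS0 hS
  · intro S hS0 hS
    exact ⟨x, S, by simpa using hS0.le, by linarith, by linarith, hnr S hS0 hS⟩

end Vale.Agent.P097.H434
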